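import Vale.Agent.P230.Core

open Finset MeasureTheory
open scoped BigOperators

namespace Vale.Agent.P230

lemma transfer {Ω S : Type*} [MeasurableSpace Ω] (μ : Measure Ω) [IsProbabilityMeasure μ] [Fintype S]
    (π : Ω → S) (N : ℕ) (Q : List S → Prop) [DecidablePred Q] :
    (Measure.pi fun _ : Fin N => μ).real {g | Q (List.ofFn fun s => π (g s))} ≤
      EE (fun a => μ.real (π ⁻¹' {a})) N fun ω => if Q ω then 1 else 0 := by
  classical
  rw [EE_eq]
  have : {g : Fin N → Ω | Q (List.ofFn fun s => π (g s))} ⊆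
      ⋃ ω ∈ univ.filter fun ω : Fin N → S => Q (List.ofFn ω), Set.pi Set.univ fun s => π ⁻¹' {ω s} := by
    intro g hg
    simp only [Set.mem_iUnion]
    exact ⟨fun s => π (g s), by simpa using hg, fun s _ => rfl⟩
  refine (measureReal_mono this (measure_ne_top _ _)).trans ((measureReal_biUnion_finset_le _ _).trans (le_of_eq ?_))
  rw [sum_filter]
  refine sum_congr rfl fun ω _ => ?_
  split_ifs
  · simp only [measureReal_def, Measure.pi_pi, ENNReal.toReal_prod, mul_one]
  · simp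

set_option maxHeartbeats 400000 in
theorem core_meas {Ω : Type*} [MeasurableSpace Ω] (μ : Measure Ω) [IsProbabilityMeasure μ]
    {R T X : Type} [Fintype R] [Fintype T] [Nonempty T] [Fintype X] (C : R × T × X → Set Ω)
    (hC : ∀ j, MeasurableSet (C j)) (U : R → T → Finset X) (ν w : R × T × X → ℝ) {κ θ : ℝ}
    {β D N : ℕ} (hκ : 0 ≤ κ) (hθ : 0 ≤ θ) (hν : ∀ j, 0 < ν j)
    (hpriv : ∀ i m, ∀ x ∈ U i m, ν (i, m, x) ≤ μ.real (C (i, m, x) \ ⋃ j, ⋃ (_ : j.1 ≠ i), C j))
    (hov : ∀ i m m', m ≠ m' → ∀ x ∈ U i m, ∀ x' ∈ U i m',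
      μ.real (C (i, m, x) ∩ C (i, m', x')) ≤ θ * ν (i, m, x) * ν (i, m', x'))
    (hw : ∀ j, 1 ≤ w j) (hw' : ∀ j, κ / ν j ≤ β * w j) (hD : ∀ i m, (U i m).card ≤ D)
    (hM : ∀ i m, (∏ x ∈ U i m, w (i, m, x)) * 2 ^ (D + β) ≤ Fintype.card T)
    (h1 : N * (κ ^ 2 * θ) ≤ 1 / 2) (hD0 : 0 < D) (h2 : 2 * D ≤ N * (κ / (1 + κ))) (s₀ : ℕ) :
    (Measure.pi fun _ : Fin N => μ).real {g | 50 * ({i | ∃ m, ∀ x ∈ U i m, ∃ s,
      g s ∈ C (i, m, x)}.ncard + s₀) ≤ Fintype.card R} ≤ 1 / 2 ^ s₀ := by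
  classical
  set P : R × T × X → Set Ω := fun j => C j \ ⋃ j', ⋃ (_ : j'.1 ≠ j.1), C j' with hP
  have hPm : ∀ j, MeasurableSet (P j) := fun j =>
    (hC j).diff (MeasurableSet.iUnion fun j' => MeasurableSet.iUnion fun _ => hC j')
  set π : Ω → Finset (R × T × X) := fun g => univ.filter fun j => g ∈ P j with hπ
  have hπm : ∀ a, MeasurableSet (π ⁻¹' {a}) := fun a => by
    have : π ⁻¹' {a} = ⋂ j, if j ∈ a then P j else (P j)ᶜ := by
      ext g
      simp only [Set.mem_preimage, Set.mem_singleton_iff, Set.mem_iInter, Finset.ext_iff, hπ,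
        mem_filter, mem_univ, true_and]
      refine forall_congr' fun j => ?_
      split_ifs with h <;> simp [h]
    rw [this]
    exact MeasurableSet.iInter fun j => by split_ifs; exacts [hPm j, (hPm j).compl]
  set p : Finset (R × T × X) → ℝ := fun a => μ.real (π ⁻¹' {a}) with hp
  have key : ∀ (Q : Finset (R × T × X) → Prop) [DecidablePred Q],
      ∑ a, (if Q a then p a else 0) = μ.real {g | Q (π g)} := by
    intro Q _
    rw [← sum_filter, sum_measureReal_preimage_singleton _ fun a _ => hπm a]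
    congr 1; ext g; simp
  have hp0 : ∀ a, 0 ≤ p a := fun a => measureReal_nonneg
  have hp1 : ∑ a, p a = 1 := by simpa using key fun _ => True
  set m₀ : R × T × X → ℝ := fun j => ∑ a, if j ∈ a then p a else 0 with hm₀
  have hm : ∀ i m, ∀ x ∈ U i m, ν (i, m, x) ≤ m₀ (i, m, x) := fun i m x hx => by
    simp only [hm₀, key]
    refine (hpriv i m x hx).trans (le_of_eq ?_)
    congr 1; ext g; simp [hπ, hP]
  set V : R → T → Finset (R × T × X) := fun i m => (U i m).image fun x => (i, m, x) with hV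
  set Φ : R → Finset (R × T × X) → ℝ := fun i A => if ∃ m, V i m ⊆ A then 1 / 2 else 1 with hΦ
  have hreg : ∀ i, EE p N (fun ω => Φ i (un ω)) ≤ 23 / 24 := fun i => by
    refine region (w := w) (β := β) (D := D) hκ hp0 hp1 (fun j => rfl) hθ N (V i) (fun m j hj => ?_)
      (fun m m' hmm j hj j' hj' => ?_) hw (fun m j hj => ?_) (fun m => card_image_le.trans (hD i m))
      (fun m => ?_) h1 hD0 h2
    · obtain ⟨x, hx, rfl⟩ := mem_image.1 hj
      exact (hν _).trans_le (hm i m x hx)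
    · obtain ⟨x, hx, rfl⟩ := mem_image.1 hj
      obtain ⟨x', hx', rfl⟩ := mem_image.1 hj'
      rw [key]
      refine (measureReal_mono (s₂ := C (i, m, x) ∩ C (i, m', x')) (fun g hg =>
        ⟨(mem_filter.1 hg.1).2.1, (mem_filter.1 hg.2).2.1⟩) (measure_ne_top _ _)).trans ((hov i m m' hmm x hx x' hx').trans ?_)
      exact mul_le_mul (mul_le_mul_of_nonneg_left (hm i m x hx) hθ) (hm i m' x' hx') (hν _).le
        (mul_nonneg hθ ((hν _).le.trans (hm i m x hx)))
    · obtain ⟨x, hx, rfl⟩ := mem_image.1 hj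
      exact (div_le_div_of_nonneg_left hκ (hν _) (hm i m x hx)).trans (hw' _)
    · rw [prod_image fun x _ y _ h => by simpa using h]; exact hM i m
  have hNA := NA hp0 hp1 Φ (fun i A B hAB => by
      simp only [hΦ]
      by_cases h : ∃ m, V i m ⊆ A
      · rw [if_pos h, if_pos (h.imp fun m h => h.trans hAB)]
      · rw [if_neg h]; split_ifs <;> norm_num)
    (fun i A => by simp only [hΦ]; split_ifs <;> norm_num) (fun a ha => by
      obtain ⟨g, hg⟩ : (π ⁻¹' {a}).Nonempty := by
        by_contra h; rw [Set.not_nonempty_iff_eq_empty] at h; simp [hp, h] at ha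
      have hg : π g = a := hg
      have h3 : ∀ i, (∀ j ∈ a, j.1 ≠ i) → ∀ A, Φ i (A ∪ a) = Φ i A := fun i hi A => by
        simp only [hΦ]
        congr 1
        refine propext (exists_congr fun m => ⟨fun h j hj => ?_, fun h => h.trans subset_union_left⟩)
        rcases mem_union.1 (h hj) with h' | h'
        · exact h'
        · obtain ⟨x, -, rfl⟩ := mem_image.1 hj
          exact (hi _ h' rfl).elim
      refine fun i i' hi => or_iff_not_imp_left.2 fun h' => h3 i' fun j hj hji => h' (h3 i fun j₀ hj₀ h0 => ?_)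
      rw [← hg] at hj hj₀
      exact (mem_filter.1 hj₀).2.2 (Set.mem_iUnion₂.2 ⟨j, by rw [hji, h0]; exact hi,
        (mem_filter.1 hj).2.1⟩)) N univ
  obtain ⟨Q, hQ⟩ : ∃ Q : List (Finset (R × T × X)) → Prop, ∀ ω, Q ω ↔
    50 * ((univ.filter fun i => ∃ m, V i m ⊆ un ω).card + s₀) ≤ Fintype.card R := ⟨_, fun _ => Iff.rfl⟩
  have hun : ∀ (ω : List (Finset (R × T × X))) j, j ∈ un ω → ∃ a ∈ ω, j ∈ a := by
    intro ω j
    induction ω with
    | nil => simp [un]
    | cons a ω ih =>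
      intro h
      rcases mem_union.1 (show j ∈ a ∪ un ω from h) with h | h
      · exact ⟨a, List.mem_cons_self, h⟩
      · obtain ⟨b, hb, h⟩ := ih h
        exact ⟨b, List.mem_cons_of_mem _ hb, h⟩
  have t1 := transfer μ π N Q
  refine le_trans (measureReal_mono (fun g hg => ?_) (measure_ne_top _ _)) (t1.trans ?_)
  · refine (hQ _).2 <| le_trans (Nat.mul_le_mul_left _ (Nat.add_le_add_right ?_ _)) hg
    rw [← Set.ncard_coe_finset]
    refine Set.ncard_le_ncard fun i hi => ?_
    obtain ⟨m, hm⟩ := (mem_filter.1 hi).2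
    refine ⟨m, fun x hx => ?_⟩
    obtain ⟨a, ha, h⟩ := hun _ _ (hm (mem_image_of_mem _ hx))
    obtain ⟨s, rfl⟩ := (List.mem_ofFn' _ _).1 ha
    exact ⟨s, (mem_filter.1 h).2.1⟩
  · set c : ℝ := 1 / 2 ^ s₀ / (23 / 24) ^ Fintype.card R with hc
    refine (EE_mono hp0 N (ψ := fun ω => c * ∏ i, Φ i (un ω)) fun ω => ?_).trans ?_
    · have e1 : ∏ i, Φ i (un ω) = (1 / 2) ^ (univ.filter fun i => ∃ m, V i m ⊆ un ω).card := by
        simp only [hΦ, prod_ite, prod_const, one_pow, mul_one]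
      rw [e1]
      split_ifs with h
      · rw [hQ] at h
        generalize (univ.filter fun i => ∃ m, V i m ⊆ un ω).card = u at h
        rw [hc, div_mul_eq_mul_div, le_div_iff₀ (by positivity), one_mul, ← one_div_pow, ← pow_add]
        calc (23 / 24 : ℝ) ^ Fintype.card R ≤ (23 / 24) ^ (50 * (u + s₀)) :=
              pow_le_pow_of_le_one (by norm_num) (by norm_num) h
          _ ≤ _ := by rw [pow_mul, add_comm]; gcongr; norm_num
      · positivity
    · rw [EE_mul]
      refine (mul_le_mul_of_nonneg_left (hNA.trans (prod_le_prod (fun i _ => (EE_const hp1 _ 0).symm.le.trans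
        (EE_mono hp0 _ fun ω => by simp only [hΦ]; split_ifs <;> norm_num)) fun i _ => hreg i))
        (by positivity)).trans (le_of_eq ?_)
      rw [prod_const, card_univ, hc]; field_simp

end Vale.Agent.P230
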