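import Vale.Agent.P230.Geom
import Vale.Agent.P230.Meas

open MeasureTheory ProbabilityTheory Finset Metric
open scoped RealInnerProductSpace Real BigOperators

namespace Vale.Agent.P230

variable {n : ℕ}

lemma cut_lower (hn : 0 < n) {t c : ℝ} (ht : 2 ≤ t) (ht2 : t ^ 2 = 40000 * n) {z : E n} (h1 : ‖z‖ ≤ 1)
    (hc : 1 ≤ c) (hc' : 4 * c ≤ n) (h2 : 1 - c / n ≤ ‖z‖) :
    2 * (ph t / t * Real.exp (-(200000 * c))) ≤ (stdGaussian (E n)).real {g | t + 1 / t < ⟪z, g⟫} := by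
  have hn' : (0:ℝ) < n := by exact_mod_cast hn
  obtain ⟨u, hu⟩ : ∃ u, u = c / n := ⟨_, rfl⟩
  have hu0 : 0 ≤ u := by rw [hu]; positivity
  have hu1 : u ≤ 1 / 4 := by rw [hu, div_le_iff₀ hn']; linarith
  have hu2 : u * n = c := by rw [hu]; field_simp
  rw [← hu] at h2
  have hz : 0 < ‖z‖ := by linarith
  have h0 : 0 < 1 / t := by positivity
  have h3 : 1 / t ≤ 1 / 2 := by gcongr
  have h4 : t * (1 / t) = 1 := by field_simp
  rw [gauss_half z (norm_pos_iff.1 hz)]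
  have h5 : (t + 1 / t) / ‖z‖ ≤ (t + 1 / t) * (1 + 2 * u) := by
    rw [div_le_iff₀ hz, mul_assoc]
    exact le_mul_of_one_le_right (by linarith) (by nlinarith)
  have h6 : t ≤ (t + 1 / t) / ‖z‖ := by rw [le_div_iff₀ hz]; nlinarith
  refine le_trans ?_ (tl_ge' (x := t) (by linarith) h6 (h5.trans (by nlinarith)))
  have h7 : ((t + 1 / t) / ‖z‖) ^ 2 ≤ (t ^ 2 + 3) * (1 + 6 * u) := by
    calc _ ≤ ((t + 1 / t) * (1 + 2 * u)) ^ 2 := by gcongr
      _ ≤ _ := by rw [mul_pow]; gcongr <;> nlinarith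
  have := ph_pos t
  rw [mul_left_comm]
  gcongr
  calc 2 * Real.exp (-(200000 * c)) ≤ Real.exp 1 * Real.exp (-(200000 * c)) := by
        gcongr; linarith [Real.add_one_le_exp (1:ℝ)]
    _ ≤ _ := by rw [← Real.exp_add]; gcongr; nlinarith

lemma overlap {t α β b : ℝ} (ht : 1 ≤ t) (hb : 0 ≤ b) (z w : E n) (h0 : 0 < α + β)
    (h : t * (1 + b) * ‖z + w‖ ≤ α + β) :
    (stdGaussian (E n)).real ({g | α < ⟪z, g⟫} ∩ {g | β < ⟪w, g⟫}) ≤
      ph t / t * Real.exp (-(t ^ 2 * b)) := by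
  refine (measureReal_mono (s₂ := {g | α + β < ⟪z + w, g⟫}) (fun g hg => ?_)
    (measure_ne_top _ _)).trans ((gauss_half_le _ h0 h).trans ((tl_le' ht (by nlinarith)).trans ?_))
  · simpa [inner_add_left] using add_lt_add hg.1 hg.2
  · have := ph_pos t
    gcongr; nlinarith [sq_nonneg (t * b)]

lemma norm_add_le_of {z w : E n} {a d b : ℝ} (hz : ‖z‖ ≤ 1) (hw : ‖w‖ ≤ a) (hd : d ≤ ‖z - w‖)
    (hd0 : 0 ≤ d) (hb : 0 ≤ b) (h : 2 + 2 * a ^ 2 - d ^ 2 ≤ b ^ 2) : ‖z + w‖ ≤ b := by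
  refine (sq_le_sq₀ (norm_nonneg _) hb).1 ?_
  have := parallelogram_law_with_norm ℝ z w
  have h1 : ‖z‖ ^ 2 ≤ 1 := by nlinarith [norm_nonneg z]
  have h2 : ‖w‖ ^ 2 ≤ a ^ 2 := by gcongr
  have h3 : d ^ 2 ≤ ‖z - w‖ ^ 2 := by gcongr
  nlinarith

/-- numerical conditions -/
structure Num (n : ℕ) (t r r' δ : ℝ) (I D k L M N : ℕ) : Prop where
  n0 : 0 < n
  t2 : 2 ≤ t
  tn : t ^ 2 = 40000 * n
  I4 : 4 * I ≤ n
  r0 : 0 < r
  r1 : r ≤ 1 / 2
  r2 : 0 ≤ r'
  r3 : r' ≤ r ^ 2 / 1000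
  d0 : 0 < δ
  d1 : δ ≤ 1
  D0 : 0 < D
  M0 : 0 < M
  h1 : Real.exp (-t ^ 2 + n) ≤ ph t / t * Real.exp (-(200000 * I)) / 2
  h2 : L * k * Real.exp (-(t ^ 2 * (r ^ 2 / 1000))) ≤ Real.exp (-(200000 * I)) / 2
  h3 : 128 * D ^ 2 * Real.exp (-(t ^ 2 * (δ ^ 2 / 8)) + 400000 * I) ≤ 1 / 2
  h4 : Real.exp (200033 * D) ≤ M
  h5 : 1 ≤ 8 * (ph t / t) * N
  h6 : 4 * D ≤ N

/-- the point `z` is robustly cut by the halfspace `g` -/
def Cut (t : ℝ) (z g : E n) : Prop := ‖g‖ ≤ 2 * t ∧ t + 1 / t < ⟪z, g⟫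

set_option maxHeartbeats 400000 in
lemma class_bound {t r r' δ : ℝ} {I D k L M N : ℕ} (h : Num n t r r' δ I D k L M N)
    {X : Type} [Fintype X] (p : X → E n) (hk : Fintype.card X ≤ k) {R : Type} [Fintype R] (hR : Fintype.card R ≤ L)
    (c : R → E n) (y : R → Fin M → E n) (hy : ∀ i m, ‖y i m - c i‖ ≤ r')
    (hwt : ∀ i m, ∑ x, wt I D 1 (y i m - p x) < D)
    (hs1 : ∀ i i', i ≠ i' → ∀ x x', r / 4 ≤ ‖(c i - p x) - (c i' - p x')‖)
    (hs2 : ∀ i m m', m ≠ m' → ∀ x x', δ ≤ ‖(y i m - p x) - (y i m' - p x')‖) (s₀ : ℕ) :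
    (Measure.pi fun _ : Fin N => stdGaussian (E n)).real {g | 50 * ({i | ∃ m, ∀ x,
      ‖y i m - p x‖ ≤ 1 → ∃ s, Cut t (y i m - p x) (g s)}.ncard + s₀) ≤ Fintype.card R} ≤ 1 / 2 ^ s₀ := by
  classical
  haveI : Nonempty (Fin M) := ⟨⟨0, h.M0⟩⟩
  have ht := h.t2
  have hr0 := h.r0
  have hr1 := h.r1
  have hr2 := h.r2
  have hr3 := h.r3
  obtain ⟨P, hP⟩ : ∃ P, P = ph t / t := ⟨_, rfl⟩
  have hP0 : 0 < P := by have := ph_pos t; rw [hP]; positivity
  have hD : (0:ℝ) < D := by exact_mod_cast h.D0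
  have hN : 4 * (D:ℝ) ≤ N := by exact_mod_cast h.h6
  have hN0 : (0:ℝ) < N := by linarith
  have hN1 : 1 / (N:ℝ) ≤ 8 * P := by rw [div_le_iff₀ hN0, hP]; exact h.h5
  have ht0 : 0 < 1 / t := by positivity
  set C : R × Fin M × X → Set (E n) := fun j =>
    {g | ‖y j.1 j.2.1 - p j.2.2‖ ≤ 1 ∧ Cut t (y j.1 j.2.1 - p j.2.2) g} with hC
  have hCm : ∀ j, MeasurableSet (C j) := fun j => (MeasurableSet.const _).inter
    ((measurableSet_le measurable_norm measurable_const).inter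
      (show MeasurableSet {g : E n | t + 1 / t < ⟪y j.1 j.2.1 - p j.2.2, g⟫} from
        measurableSet_lt measurable_const (by fun_prop)))
  have hwt' : ∀ i m (x : X), wt I D 1 (y i m - p x) < D := fun i m x =>
    (single_le_sum (f := fun x => wt I D 1 (y i m - p x)) (fun _ _ => wt_nonneg _ _ _ _) (mem_univ x)).trans_lt
      (hwt i m)
  have hI : ∀ z : E n, P * Real.exp (-(200000 * I)) ≤ P * Real.exp (-(200000 * cnt I 1 z)) :=
    fun z => by gcongr; exact cnt_le _ _ _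
  have hsum : ∀ i m, ∑ x ∈ univ.filter fun x : X => ‖y i m - p x‖ ≤ 1, cnt I 1 (y i m - p x) ≤ D :=
    fun i m => (sum_le_sum_of_subset_of_nonneg (filter_subset _ _) fun _ _ _ => cnt_nonneg _ _ _).trans
      ((sum_le_sum fun _ _ => cnt_le_wt I D _ _).trans
        (hwt i m).le)
  have key := core_meas (stdGaussian (E n)) C hCm (fun i m => univ.filter fun x : X => ‖y i m - p x‖ ≤ 1)
    (fun j => P * Real.exp (-(200000 * cnt I 1 (y j.1 j.2.1 - p j.2.2))))
    (fun j => Real.exp (200000 * cnt I 1 (y j.1 j.2.1 - p j.2.2))) (κ := 4 * D / N)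
    (θ := Real.exp (-(t ^ 2 * (δ ^ 2 / 8)) + 400000 * I) / P) (β := 32 * D) (D := D) (N := N)
    (by positivity) (by positivity) (fun j => by positivity) (fun i m x hx => ?_)
    (fun i m m' hmm x hx x' hx' => ?_)
    (fun j => Real.one_le_exp (mul_nonneg (by norm_num) (cnt_nonneg _ _ _))) (fun j => ?_)
    (fun i m => ?_) (fun i m => ?_) ?_ h.D0 ?_ s₀
  · refine le_trans (measureReal_mono (fun g hg => ?_) (measure_ne_top _ _)) key
    refine le_trans (Nat.mul_le_mul_left _ (Nat.add_le_add_right (Set.ncard_le_ncard ?_) _)) hg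
    rintro i ⟨m, hm⟩
    exact ⟨m, fun x h1 => (hm x (by simpa using h1)).imp fun s hs => hs.2⟩
  · have hz := (mem_filter.1 hx).2
    obtain ⟨c1, c2⟩ := cnt_ge h.n0 hz (hwt' i m x)
    have e1 := cut_lower h.n0 ht h.tn hz c1 (by
      have : (4 * I : ℝ) ≤ n := by exact_mod_cast h.I4
      linarith [cnt_le I 1 (y i m - p x)]) c2
    have e2 := (gauss_norm (n := n) ((2 * t) ^ 2)).trans
      ((Real.exp_le_exp.2 (le_of_eq (by ring))).trans h.h1)
    set O : R × X → Set (E n) := fun q => {g | q.1 ≠ i ∧ ‖c q.1 - p q.2‖ ≤ 1 + r' ∧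
      g ∈ {g | t < ⟪y i m - p x, g⟫} ∩ {g | t - 2 * t * r' < ⟪c q.1 - p q.2, g⟫}} with hO
    have e3 : ∀ q, (stdGaussian (E n)).real (O q) ≤ P * Real.exp (-(t ^ 2 * (r ^ 2 / 1000))) := by
      intro q
      by_cases hq : q.1 ≠ i ∧ ‖c q.1 - p q.2‖ ≤ 1 + r'
      · refine (measureReal_mono (fun g hg => hg.2.2) (measure_ne_top _ _)).trans
          (hP ▸ overlap (by linarith) (by positivity) _ _ (by
            have : r' ≤ 1 / 2 := by nlinarith
            nlinarith) ?_)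
        have a1 : r / 4 - r' ≤ ‖(y i m - p x) - (c q.1 - p q.2)‖ := by
          have a2 := hs1 i q.1 hq.1.symm x q.2
          have a3 := norm_sub_le ((y i m - p x) - (c q.1 - p q.2)) (y i m - c i)
          rw [show (y i m - p x) - (c q.1 - p q.2) - (y i m - c i) = (c i - p x) - (c q.1 - p q.2) by abel] at a3
          linarith [hy i m]
        have a2 : r' ≤ r / 20 := by nlinarith
        have a3 := norm_add_le_of (d := r / 5) (b := 2 * (1 - r ^ 2 / 400)) hz hq.2 (by linarith)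
          (by positivity) (by nlinarith) (by nlinarith [sq_nonneg (r ^ 2)])
        calc _ ≤ t * (1 + r ^ 2 / 1000) * (2 * (1 - r ^ 2 / 400)) := by gcongr
          _ = 2 * t * ((1 + r ^ 2 / 1000) * (1 - r ^ 2 / 400)) := by ring
          _ ≤ 2 * t * (1 - r') := by gcongr; nlinarith [sq_nonneg (r ^ 2)]
          _ = _ := by ring
      · rw [show O q = ∅ from Set.eq_empty_of_forall_notMem fun g hg => hq ⟨hg.1, hg.2.1⟩,
          measureReal_empty]; positivity
    have e4 : (stdGaussian (E n)).real (⋃ q, O q) ≤ P * Real.exp (-(200000 * I)) / 2 := by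
      refine (measureReal_iUnion_fintype_le _).trans ((sum_le_card_nsmul _ _ _ fun q _ => e3 q).trans ?_)
      rw [card_univ, Fintype.card_prod, nsmul_eq_mul, mul_left_comm, mul_div_assoc]
      refine mul_le_mul_of_nonneg_left (le_trans ?_ h.h2) hP0.le
      push_cast; gcongr
    have e5 : {g | t + 1 / t < ⟪y i m - p x, g⟫} ⊆ (C (i, m, x) \ ⋃ j, ⋃ (_ : j.1 ≠ i), C j) ∪
        ({g | (2 * t) ^ 2 ≤ ‖g‖ ^ 2} ∪ ⋃ q, O q) := by
      intro g hg
      by_cases a1 : ‖g‖ ≤ 2 * t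
      · by_cases a2 : g ∈ ⋃ j, ⋃ (_ : j.1 ≠ i), C j
        · obtain ⟨⟨i', m', x'⟩, b1, b2, -, b3⟩ := Set.mem_iUnion₂.1 a2
          simp only at b1 b2 b3
          refine Or.inr (Or.inr (Set.mem_iUnion.2 ⟨(i', x'), b1, ?_, ?_, ?_⟩))
          · have := norm_sub_le (y i' m' - p x') (y i' m' - c i')
            rw [show y i' m' - p x' - (y i' m' - c i') = c i' - p x' by abel] at this
            linarith [hy i' m']
          · exact lt_trans (b := t + 1 / t) (by linarith) hg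
          · show _ < ⟪c i' - p x', g⟫
            rw [show c i' - p x' = y i' m' - p x' - (y i' m' - c i') by abel, inner_sub_left]
            have := (real_inner_le_norm (y i' m' - c i') g).trans
              (mul_le_mul (hy i' m') a1 (norm_nonneg _) hr2)
            linarith
        · exact Or.inl ⟨⟨hz, a1, hg⟩, a2⟩
      · exact Or.inr (Or.inl (pow_le_pow_left₀ (by linarith) (not_le.1 a1).le 2))
    have e6 := (measureReal_mono (μ := stdGaussian (E n)) e5 (measure_ne_top _ _)).trans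
      ((measureReal_union_le _ _).trans (add_le_add le_rfl (measureReal_union_le _ _)))
    rw [← hP] at e1 e2
    have := hI (y i m - p x)
    simp only
    linarith
  · have hz := (mem_filter.1 hx).2
    have hz' := (mem_filter.1 hx').2
    have hδ := h.d0
    have hδ1 := h.d1
    refine (measureReal_mono (s₂ := {g | t < ⟪y i m - p x, g⟫} ∩ {g | t < ⟪y i m' - p x', g⟫})
      (fun g hg => ⟨lt_trans (by linarith) hg.1.2.2, lt_trans (by linarith) hg.2.2.2⟩)
      (measure_ne_top _ _)).trans ((overlap (t := t) (b := δ ^ 2 / 8) (by linarith) (by positivity)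
        _ _ (by linarith) ?_).trans ?_)
    · have a3 := norm_add_le_of (b := 2 * (1 - δ ^ 2 / 8)) hz hz' (hs2 i m m' hmm x x')
        hδ.le (by nlinarith) (by nlinarith [sq_nonneg (δ ^ 2)])
      calc _ ≤ t * (1 + δ ^ 2 / 8) * (2 * (1 - δ ^ 2 / 8)) := by gcongr
        _ ≤ _ := by nlinarith [mul_nonneg (show 0 ≤ t by linarith) (sq_nonneg (δ ^ 2))]
    · rw [← hP]
      refine le_trans (le_of_eq ?_) (mul_le_mul (mul_le_mul_of_nonneg_left (hI _) (by positivity))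
        (hI _) (by positivity) (by positivity))
      rw [Real.exp_add, show (400000 * I : ℝ) = 200000 * I + 200000 * I by ring, Real.exp_add,
        Real.exp_neg (200000 * I)]
      field_simp
  · rw [Real.exp_neg, ← div_eq_mul_inv, div_div_eq_mul_div, div_le_iff₀ hP0]
    push_cast
    have := mul_le_mul_of_nonneg_left hN1 (show 0 ≤ 4 * D * Real.exp (200000 * cnt I 1
      (y j.1 j.2.1 - p j.2.2)) by positivity)
    calc _ = 4 * D * Real.exp (200000 * cnt I 1 (y j.1 j.2.1 - p j.2.2)) * (1 / N) := by ring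
      _ ≤ _ := this.trans (le_of_eq (by ring))
  · have := (card_nsmul_le_sum _ _ 1 fun x hx =>
      (cnt_ge h.n0 (mem_filter.1 hx).2 (hwt' i m x)).1).trans (hsum i m)
    simpa using this
  · rw [← Real.exp_sum, ← mul_sum, Fintype.card_fin]
    refine le_trans ?_ h.h4
    calc _ ≤ Real.exp (200000 * D) * Real.exp 1 ^ (D + 32 * D) := by
          gcongr
          · exact hsum i m
          · linarith [Real.add_one_le_exp (1:ℝ)]
      _ = _ := by rw [← Real.exp_nat_mul, ← Real.exp_add]; congr 1; push_cast; ring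
  · refine le_trans ?_ h.h3
    calc _ = 16 * D ^ 2 * Real.exp (-(t ^ 2 * (δ ^ 2 / 8)) + 400000 * I) / P * (1 / N) := by
          field_simp; norm_num
      _ ≤ 16 * D ^ 2 * Real.exp (-(t ^ 2 * (δ ^ 2 / 8)) + 400000 * I) / P * (8 * P) := by gcongr
      _ = _ := by field_simp; norm_num
  · have : 4 * D / (N:ℝ) ≤ 1 := (div_le_one hN0).2 hN
    rw [← mul_div_assoc, mul_div_cancel₀ _ hN0.ne', le_div_iff₀ (by positivity)]
    nlinarith

end Vale.Agent.P230
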