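import Vale.Agent.P230.Class

open MeasureTheory ProbabilityTheory Finset Metric
open scoped RealInnerProductSpace Real BigOperators Classical

namespace Vale.Agent.P230

variable {n : ℕ}

/-- region `i` has many light test points -/
def Good {P : ℕ} (I D : ℕ) (c : E n) (d : Fin P → E n) (X : Finset (E n)) : Prop :=
  P ≤ 2 * (univ.filter fun j => ∑ x ∈ X, wt I D 1 (c + d j - x) < D).card

/-- some test point is robustly uncovered -/
def Succ {M N : ℕ} (t : ℝ) (y : Fin M → E n) (X : Finset (E n)) (g : Fin N → E n) : Prop :=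
  ∃ m, ∀ x ∈ X, ‖y m - x‖ ≤ 1 → ∃ s, Cut t (y m - x) (g s)

lemma config {t r r' δ : ℝ} {I D k L M N : ℕ} (h : Num n t r r' δ I D k L M N)
    (c : Fin L → E n) (hc : ∀ i j, i ≠ j → r / 2 ≤ ‖c i - c j‖) (d : Fin (2 * ((k ^ 2 + 1) * M)) → E n)
    (hd : ∀ j, ‖d j‖ ≤ r') (hd' : ∀ i j, i ≠ j → 2 * δ ≤ ‖d i - d j‖) (s₀ : ℕ) (X : Finset (E n))
    (hX : X.card ≤ k) : ∃ y : Fin L → Fin M → E n, (∀ i m, ‖y i m - c i‖ ≤ r') ∧
      (Measure.pi fun _ : Fin N => stdGaussian (E n)).real {g | 50 * ((univ.filter fun i =>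
        Succ t (y i) X g).card + (k ^ 2 + 1) * s₀) < (univ.filter fun i => Good I D (c i) d X).card} ≤
          (k ^ 2 + 1 : ℕ) * (1 / 2 ^ s₀) := by
  obtain ⟨col₁, h1⟩ := conflict_col (δ := r / 4) c (fun i j hij => by linarith [hc i j hij]) X hX
  obtain ⟨col₂, h2⟩ := conflict_col d hd' X hX
  have h3 : ∀ i, ∃ y : Fin M → E n, (∀ m, ‖y m - c i‖ ≤ r') ∧ (Good I D (c i) d X →
      (∀ m, ∑ x ∈ X, wt I D 1 (y m - x) < D) ∧
        ∀ m m', m ≠ m' → ∀ x ∈ X, ∀ x' ∈ X, δ ≤ ‖(y m - x) - (y m' - x')‖) := by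
    intro i
    by_cases hg : Good I D (c i) d X
    · obtain ⟨a, -, ha⟩ := exists_le_card_fiber_of_mul_le_card_of_maps_to (f := col₂) (t := univ)
        (s := univ.filter fun j => ∑ x ∈ X, wt I D 1 (c i + d j - x) < D) (n := M)
        (fun _ _ => mem_univ _) univ_nonempty (by
          have := Nat.le_of_mul_le_mul_left hg two_pos
          simpa using this)
      obtain ⟨e, he⟩ := Function.Embedding.exists_of_card_le_finset (α := Fin M) (by simpa using ha)
      have he' := fun m => mem_filter.1 (he ⟨m, rfl⟩)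
      refine ⟨fun m => c i + d (e m), fun m => by simpa using hd _, fun _ =>
        ⟨fun m => (mem_filter.1 (he' m).1).2, fun m m' hm x hx x' hx' => ?_⟩⟩
      have := h2 _ _ (e.injective.ne hm) ((he' m).2.trans (he' m').2.symm) x hx x' hx'
      rwa [show c i + d (e m) - x - (c i + d (e m') - x') = d (e m) - x - (d (e m') - x') by abel]
    · exact ⟨fun _ => c i, fun _ => by simpa using h.r2, fun h => (hg h).elim⟩
  choose y hy hy' using h3
  refine ⟨y, hy, ?_⟩
  have key := fun a : Fin (k ^ 2 + 1) => class_bound h (X := X) Subtype.val (by simpa using hX)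
    (R := {i // Good I D (c i) d X ∧ col₁ i = a})
    ((Fintype.card_subtype_le _).trans (by simp)) (fun i => c i) (fun i => y i) (fun i => hy i)
    (fun i m => (sum_coe_sort X fun x => wt I D 1 (y i m - x)).trans_lt ((hy' i i.2.1).1 m))
    (fun i i' hi x x' => h1 _ _ (Subtype.coe_ne_coe.2 hi) (i.2.2.trans i'.2.2.symm) _ x.2 _ x'.2)
    (fun i m m' hm x x' => (hy' i i.2.1).2 m m' hm _ x.2 _ x'.2) s₀
  refine le_trans (measureReal_mono (fun g hg => ?_) (measure_ne_top _ _))
    ((measureReal_iUnion_fintype_le _).trans ((sum_le_sum fun a _ => key a).trans (by simp)))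
  by_contra hcon
  simp only [Set.mem_iUnion, Set.mem_ofPred_eq, not_exists, not_le] at hcon hg
  refine absurd hg (not_lt.2 ?_)
  rw [card_eq_sum_card_fiberwise (f := col₁) (t := univ) fun _ _ => mem_univ _,
    card_eq_sum_card_fiberwise (f := col₁) (t := univ) (s := univ.filter fun i => Succ t (y i) X g)
      fun _ _ => mem_univ _]
  calc _ ≤ ∑ a, 50 * (((univ.filter fun i => Succ t (y i) X g).filter fun i => col₁ i = a).card + s₀) :=
        sum_le_sum fun a _ => ?_
    _ = _ := by simp [← mul_sum, sum_add_distrib]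
  have := (hcon a).le
  rw [Fintype.card_subtype, ← filter_filter] at this
  refine this.trans (Nat.mul_le_mul_left _ (Nat.add_le_add_right ?_ _))
  rw [← Set.ncard_coe_finset]
  refine Set.ncard_le_ncard_of_injOn Subtype.val ?_ Subtype.val_injective.injOn
  rintro ⟨i, hi⟩ ⟨m, hm⟩
  simpa using ⟨⟨m, fun x hx => hm ⟨x, hx⟩⟩, hi.2⟩

/-- the random body -/
def body {N : ℕ} (t η : ℝ) (g : Fin N → E n) : Set (E n) :=
  {x | ‖x‖ ≤ 1 - η ∧ ∀ s, ‖g s‖ ≤ 2 * t → ⟪x, g s⟫ ≤ t}

lemma exists_body {t η : ℝ} {N : ℕ} (ht : 1 ≤ t) (hN : 4 * N * (ph t / t) ≤ 1) (hη : 0 ≤ η)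
    (hη' : n * η ≤ 1 / 2) (hη1 : η ≤ 1) (B : Set (Fin N → E n))
    (hB : (Measure.pi fun _ : Fin N => stdGaussian (E n)).real B ≤ 1 / 4) :
    ∃ g ∉ B, V n / 4 ≤ volume.real (body t η g) := by
  set A := closedBall (0 : E n) (1 - η) with hA
  set γ := stdGaussian (E n)
  have hV := V_pos (n := n)
  have hA1 : V n / 2 ≤ volume.real A := by
    rw [vol_cb _ (by linarith)]
    have := one_add_mul_le_pow (a := -η) (by linarith) n
    rw [← sub_eq_add_neg] at this
    nlinarith
  haveI : IsFiniteMeasure (volume.restrict A) := ⟨by simpa using measure_closedBall_lt_top⟩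
  set S : Set (E n × E n) := {q | t < ⟪q.2, q.1⟫} with hS
  have hSm : MeasurableSet S := measurableSet_lt measurable_const (by fun_prop)
  set F : E n → ENNReal := fun g => volume.restrict A (Prod.mk g ⁻¹' S) with hF
  have hFm : Measurable F := measurable_measure_prodMk_left hSm
  have h1 : ∫⁻ g, F g ∂γ ≤ ENNReal.ofReal (ph t / t) * volume A := by
    rw [← Measure.prod_apply hSm, Measure.prod_apply_symm hSm, ← setLIntegral_const]
    refine setLIntegral_mono measurable_const fun z hz => ?_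
    rw [← ENNReal.toReal_le_toReal (measure_ne_top _ _) ENNReal.ofReal_ne_top,
      ENNReal.toReal_ofReal (by have := ph_pos t; positivity)]
    refine (gauss_half_le z (by linarith) (x := t) ?_).trans (tl_le (by linarith))
    have : ‖z‖ ≤ 1 - η := by simpa [hA] using hz
    nlinarith
  have h2 : ∫⁻ g, ∑ s, F (g s) ∂(Measure.pi fun _ : Fin N => γ) ≤ volume A / 4 := by
    rw [lintegral_finsetSum (f := fun s (g : Fin N → E n) => F (g s)) _
      fun s _ => hFm.comp (measurable_pi_apply s)]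
    simp only [(measurePreserving_eval (fun _ : Fin N => γ) _).lintegral_comp hFm,
      show ∀ s : Fin N, (fun g : Fin N → E n => F (g s)) = fun g => F (Function.eval s g) from
        fun _ => rfl]
    refine (sum_le_card_nsmul _ _ _ fun _ _ => h1).trans ?_
    rw [card_univ, Fintype.card_fin, nsmul_eq_mul, ← mul_assoc, ENNReal.div_eq_inv_mul]
    gcongr
    rw [← ENNReal.ofReal_natCast, ← ENNReal.ofReal_mul (Nat.cast_nonneg _),
      show (4 : ENNReal)⁻¹ = ENNReal.ofReal (1 / 4) by rw [ENNReal.ofReal_div_of_pos] <;> simp]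
    exact ENNReal.ofReal_le_ofReal (by linarith)
  have hA0 : volume A ≠ 0 := fun h => by simp [measureReal_def, h] at hA1; linarith
  have hAt : volume A ≠ ⊤ := measure_closedBall_lt_top.ne
  have h3 : (Measure.pi fun _ : Fin N => γ).real {g | volume A / 2 ≤ ∑ s, F (g s)} ≤ 1 / 2 := by
    have := (meas_ge_le_lintegral_div (μ := Measure.pi fun _ : Fin N => γ)
      (f := fun g => ∑ s, F (g s))
      (Finset.measurable_sum _ fun s _ => hFm.comp (measurable_pi_apply s)).aemeasurable (ε := volume A / 2)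
      (by simp [hA0]) (ENNReal.div_ne_top hAt two_ne_zero)).trans (ENNReal.div_le_div_right h2 _)
    refine (ENNReal.toReal_mono (ENNReal.div_ne_top (ENNReal.div_ne_top hAt (by simp))
      (by simp [hA0])) this).trans (le_of_eq ?_)
    have : (volume A).toReal ≠ 0 := ENNReal.toReal_ne_zero.2 ⟨hA0, hAt⟩
    simp only [ENNReal.toReal_div, ENNReal.toReal_ofNat]; field_simp; norm_num
  obtain ⟨g, hg⟩ : ∃ g, g ∉ B ∪ {g | volume A / 2 ≤ ∑ s, F (g s)} := by
    by_contra hcon
    push Not at hcon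
    have := measureReal_union_le (μ := Measure.pi fun _ : Fin N => γ) B
      {g | volume A / 2 ≤ ∑ s, F (g s)}
    rw [Set.eq_univ_of_forall hcon, probReal_univ] at this
    linarith
  simp only [Set.mem_union, Set.mem_ofPred_eq, not_or, not_le] at hg
  refine ⟨g, hg.1, ?_⟩
  have h4 : A ⊆ body t η g ∪ ⋃ s, (Prod.mk (g s) ⁻¹' S ∩ A) := by
    intro z hz
    by_cases hh : ∀ s, ⟪z, g s⟫ ≤ t
    · exact Or.inl ⟨by simpa [hA] using hz, fun s _ => hh s⟩
    · push Not at hh
      exact Or.inr (Set.mem_iUnion.2 (hh.imp fun s hs => ⟨hs, hz⟩))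
  have h5 : volume A ≤ volume (body t η g) + volume A / 2 := by
    refine (measure_mono h4).trans ((measure_union_le _ _).trans (add_le_add le_rfl
      ((measure_iUnion_fintype_le _ _).trans (le_trans (le_of_eq ?_) hg.2.le))))
    exact sum_congr rfl fun s _ => (Measure.restrict_apply (measurable_prodMk_left hSm)).symm
  have h6 : volume (body t η g) ≠ ⊤ :=
    ne_top_of_le_ne_top hAt (measure_mono fun z hz => by simpa [hA] using hz.1)
  have := ENNReal.toReal_mono (ENNReal.add_ne_top.2 ⟨h6, ENNReal.div_ne_top hAt two_ne_zero⟩) h5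
  rw [ENNReal.toReal_add h6 (ENNReal.div_ne_top hAt two_ne_zero), ENNReal.toReal_div,
    ENNReal.toReal_ofNat] at this
  simp only [measureReal_def] at hA1 ⊢
  linarith

end Vale.Agent.P230
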