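import Mathlib

open Finset
open scoped BigOperators

namespace Vale.Agent.P230

section Exp
variable {S : Type*} [Fintype S] (p : S → ℝ)

/-- expectation over `N` independent samples -/
noncomputable def EE : ℕ → (List S → ℝ) → ℝ
  | 0, φ => φ []
  | N + 1, φ => ∑ a, p a * EE N fun ω => φ (a :: ω)

variable {p}

lemma EE_mono (hp : ∀ a, 0 ≤ p a) (N : ℕ) {φ ψ : List S → ℝ} (h : ∀ ω, φ ω ≤ ψ ω) :
    EE p N φ ≤ EE p N ψ := by
  induction N generalizing φ ψ with
  | zero => exact h _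
  | succ N ih => exact sum_le_sum fun a _ => mul_le_mul_of_nonneg_left (ih fun ω => h _) (hp a)

lemma EE_add (N : ℕ) (φ ψ : List S → ℝ) :
    EE p N (fun ω => φ ω + ψ ω) = EE p N φ + EE p N ψ := by
  induction N generalizing φ ψ with
  | zero => rfl
  | succ N ih => simp only [EE, ih, mul_add, sum_add_distrib]

lemma EE_mul (N : ℕ) (c : ℝ) (φ : List S → ℝ) : EE p N (fun ω => c * φ ω) = c * EE p N φ := by
  induction N generalizing φ with
  | zero => rfl
  | succ N ih => simp only [EE, ih, mul_sum, mul_left_comm]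

lemma EE_const (hp : ∑ a, p a = 1) (N : ℕ) (c : ℝ) : EE p N (fun _ => c) = c := by
  induction N with
  | zero => rfl
  | succ N ih => simp only [EE, ih, ← sum_mul, hp, one_mul]

lemma EE_sum {α : Type*} (s : Finset α) (N : ℕ) (φ : α → List S → ℝ) :
    EE p N (fun ω => ∑ i ∈ s, φ i ω) = ∑ i ∈ s, EE p N (φ i) := by
  induction N generalizing φ with
  | zero => rfl
  | succ N ih => simp only [EE, ih, mul_sum]; exact sum_comm

lemma EE_eq (N : ℕ) (φ : List S → ℝ) :
    EE p N φ = ∑ ω : Fin N → S, (∏ s, p (ω s)) * φ (List.ofFn ω) := by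
  induction N generalizing φ with
  | zero => simp [EE]
  | succ N ih =>
    rw [← (Fin.consEquiv fun _ => S).sum_comp, Fintype.sum_prod_type]
    simp only [EE, ih, mul_sum, Fin.consEquiv_apply, Fin.prod_univ_succ, List.ofFn_succ, mul_assoc]
    rfl

end Exp

variable {ι : Type*} [Fintype ι] [DecidableEq ι]

/-- union of a list -/
def un (ω : List (Finset ι)) : Finset ι := ω.foldr (· ∪ ·) ∅

/-- one step tilt -/
noncomputable def ff (κ : ℝ) (μ : ι → ℝ) (U a : Finset ι) : ℝ :=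
  if U = ∅ then 1 else (1 + κ / U.card * ∑ j ∈ U ∩ a, 1 / μ j) / (1 + κ)

/-- likelihood ratio -/
noncomputable def LL (κ : ℝ) (μ : ι → ℝ) : Finset ι → List (Finset ι) → ℝ
  | U, [] => if U = ∅ then 1 else 0
  | U, a :: ω => ff κ μ U a * LL κ μ (U \ a) ω

variable {κ : ℝ} {μ : ι → ℝ} {p : Finset ι → ℝ}

omit [Fintype ι] in
lemma ff_nonneg (hκ : 0 ≤ κ) (hμ : ∀ j, 0 ≤ μ j) (U a : Finset ι) : 0 ≤ ff κ μ U a := by
  unfold ff
  split_ifs
  · exact zero_le_one
  · have : 0 ≤ ∑ j ∈ U ∩ a, 1 / μ j := sum_nonneg fun j _ => by have := hμ j; positivity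
    positivity

omit [Fintype ι] in
lemma LL_nonneg (hκ : 0 ≤ κ) (hμ : ∀ j, 0 ≤ μ j) (U : Finset ι) (ω : List (Finset ι)) :
    0 ≤ LL κ μ U ω := by
  induction ω generalizing U with
  | nil => unfold LL; split_ifs <;> norm_num
  | cons a ω ih => exact mul_nonneg (ff_nonneg hκ hμ _ _) (ih _)

omit [Fintype ι] in
lemma LL_supp {U : Finset ι} {ω : List (Finset ι)} (h : LL κ μ U ω ≠ 0) : U ⊆ un ω := by
  induction ω generalizing U with
  | nil => unfold LL at h; simp_all
  | cons a ω ih =>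
    have := ih (right_ne_zero_of_mul h)
    intro j hj
    show j ∈ a ∪ un ω
    by_cases h : j ∈ a
    · exact mem_union_left _ h
    · exact mem_union_right _ (this (mem_sdiff.2 ⟨hj, h⟩))

lemma sum_inter (hμ : ∀ j, μ j = ∑ a, if j ∈ a then p a else 0) (U : Finset ι)
    (hU : ∀ j ∈ U, 0 < μ j) : ∑ a, p a * ∑ j ∈ U ∩ a, 1 / μ j = U.card := by
  simp only [← filter_mem_eq_inter, sum_filter, mul_sum]
  rw [sum_comm, card_eq_sum_ones, Nat.cast_sum]
  refine sum_congr rfl fun j hj => ?_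
  have : ∑ a, p a * (if j ∈ a then 1 / μ j else 0) = (∑ a, if j ∈ a then p a else 0) / μ j := by
    rw [sum_div]; exact sum_congr rfl fun a _ => by split_ifs <;> simp [div_eq_mul_inv]
  rw [this, ← hμ, div_self (hU j hj).ne', Nat.cast_one]

lemma sum_ff (hκ : 0 ≤ κ) (hp : ∑ a, p a = 1) (hμ : ∀ j, μ j = ∑ a, if j ∈ a then p a else 0)
    (U : Finset ι) (hU : ∀ j ∈ U, 0 < μ j) : ∑ a, p a * ff κ μ U a = 1 := by
  unfold ff
  split_ifs with h
  · simpa using hp
  · have : (U.card : ℝ) ≠ 0 := by simpa using h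
    simp only [← mul_div_assoc, ← sum_div, mul_add, sum_add_distrib, mul_one, hp, mul_left_comm (p _),
      ← mul_sum, sum_inter hμ U hU]
    field_simp

lemma EE_LL_le (hκ : 0 ≤ κ) (hp0 : ∀ a, 0 ≤ p a) (hp : ∑ a, p a = 1)
    (hμ : ∀ j, μ j = ∑ a, if j ∈ a then p a else 0) (N : ℕ) (U : Finset ι) (hU : ∀ j ∈ U, 0 < μ j) :
    EE p N (LL κ μ U) ≤ 1 := by
  have hμ0 : ∀ j, 0 ≤ μ j := fun j => hμ j ▸ sum_nonneg fun a _ => by split_ifs <;> simp [hp0]
  induction N generalizing U with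
  | zero => simp only [EE, LL]; split_ifs <;> norm_num
  | succ N ih =>
    simp only [EE, LL, EE_mul]
    rw [← sum_ff hκ hp hμ U hU]
    exact sum_le_sum fun a _ => mul_le_mul_of_nonneg_left (mul_le_of_le_one_right
      (ff_nonneg hκ hμ0 _ _) (ih _ fun j hj => hU j (mem_sdiff.1 hj).1)) (hp0 a)

lemma EE_LL_ge (hκ : 0 ≤ κ) (hp0 : ∀ a, 0 ≤ p a) (hp : ∑ a, p a = 1)
    (hμ : ∀ j, μ j = ∑ a, if j ∈ a then p a else 0) (N : ℕ) (U : Finset ι) (hU : ∀ j ∈ U, 0 < μ j) :
    N * (κ / (1 + κ)) * (1 - EE p N (LL κ μ U)) ≤ U.card := by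
  have hμ0 : ∀ j, 0 ≤ μ j := fun j => hμ j ▸ sum_nonneg fun a _ => by split_ifs <;> simp [hp0]
  induction N generalizing U with
  | zero => simp
  | succ N ih =>
    by_cases h : U = ∅
    · subst h
      have : ∀ ω, LL κ μ ∅ ω = 1 := fun ω => by induction ω <;> simp_all [LL, ff]
      have : LL κ μ ∅ = fun _ => 1 := funext this
      rw [this, EE_const hp]; simp
    have h0 : 0 ≤ EE p (N + 1) (LL κ μ U) :=
      (EE_const hp _ 0).symm.le.trans (EE_mono hp0 _ (LL_nonneg hκ hμ0 U))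
    have hc : (0:ℝ) < U.card := by exact_mod_cast card_pos.2 (nonempty_iff_ne_empty.2 h)
    have h1 : N * (κ / (1 + κ)) * (1 - EE p (N + 1) (LL κ μ U)) ≤
        ∑ a, p a * ff κ μ U a * (U \ a).card := by
      nth_rewrite 2 [← sum_ff hκ hp hμ U hU]
      simp only [EE, LL, EE_mul, ← sum_sub_distrib, mul_sum]
      refine sum_le_sum fun a _ => ?_
      have := mul_le_mul_of_nonneg_left (ih (U \ a) fun j hj => hU j (mem_sdiff.1 hj).1)
        (mul_nonneg (hp0 a) (ff_nonneg hκ hμ0 U a))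
      linarith
    have h2 : κ / (1 + κ) ≤ ∑ a, p a * ff κ μ U a * (U ∩ a).card := by
      calc κ / (1 + κ) = ∑ a, κ / (1 + κ) / U.card * (p a * ∑ j ∈ U ∩ a, 1 / μ j) := by
            rw [← mul_sum, sum_inter hμ U hU]; field_simp
        _ ≤ _ := sum_le_sum fun a _ => by
            rcases (U ∩ a).eq_empty_or_nonempty with h' | h'
            · simp [h']
            · have : (1:ℝ) ≤ (U ∩ a).card := by exact_mod_cast card_pos.2 h'
              refine le_trans ?_ (le_mul_of_one_le_right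
                (mul_nonneg (hp0 a) (ff_nonneg hκ hμ0 U a)) this)
              rw [ff, if_neg h, mul_left_comm]
              refine mul_le_mul_of_nonneg_left ?_ (hp0 a)
              rw [add_div]
              exact le_add_of_nonneg_of_le (by positivity) (le_of_eq (by ring))
    have h3 : ∑ a, p a * ff κ μ U a * (U \ a).card + ∑ a, p a * ff κ μ U a * (U ∩ a).card =
        U.card := by
      rw [← sum_add_distrib]
      simp only [← mul_add, ← Nat.cast_add, card_sdiff_add_card_inter, ← sum_mul, sum_ff hκ hp hμ U hU,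
        one_mul]
    have h4 : 0 ≤ κ / (1 + κ) * EE p (N + 1) (LL κ μ U) := by positivity
    push_cast
    linarith

lemma one_add_sum_le_prod_one_add {α : Type*} (s : Finset α) (f : α → ℝ) (h : ∀ i ∈ s, 0 ≤ f i) :
    1 + ∑ i ∈ s, f i ≤ ∏ i ∈ s, (1 + f i) := by
  classical
  induction s using Finset.induction_on with
  | empty => simp
  | insert a s ha ih =>
    rw [sum_insert ha, prod_insert ha]
    have h1 := ih fun i hi => h i (mem_insert_of_mem hi)
    have h2 := h a (mem_insert_self _ _)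
    have h3 := sum_nonneg fun i hi => h i (mem_insert_of_mem hi)
    nlinarith

lemma choose_step (β u r : ℕ) :
    (1 + (β : ℝ) / (u + r : ℕ)) ^ r * ((u + β).choose u) ≤ (u + r + β).choose (u + r) := by
  induction r with
  | zero => simp
  | succ r ih =>
    have h1 : ((u + r + β + 1 : ℕ) : ℝ) * (u + r + β).choose (u + r) =
        (u + r + β + 1).choose (u + r + 1) * (u + r + 1 : ℕ) := by
      exact_mod_cast Nat.add_one_mul_choose_eq _ _
    have h2 : (1 + (β : ℝ) / (u + (r + 1) : ℕ)) ^ r * ((u + β).choose u) ≤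
        (u + r + β).choose (u + r) := by
      refine le_trans ?_ ih
      rcases Nat.eq_zero_or_pos r with rfl | hr
      · simp
      · gcongr; omega
    have h3 : (0:ℝ) < (u + r + 1 : ℕ) := by positivity
    rw [pow_succ', mul_assoc, show u + (r + 1) + β = u + r + β + 1 by ring, ← add_assoc]
    refine (mul_le_mul_of_nonneg_left h2 (by positivity)).trans (le_of_eq ?_)
    refine mul_right_cancel₀ h3.ne' ?_
    rw [← h1]; push_cast; field_simp; ring

omit [Fintype ι] in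
lemma LL_le (hκ : 0 ≤ κ) (hμ : ∀ j, 0 ≤ μ j) {β : ℕ} {w : ι → ℝ} (hw : ∀ j, 1 ≤ w j) (U : Finset ι)
    (hU : ∀ j ∈ U, κ / μ j ≤ β * w j) (ω : List (Finset ι)) :
    LL κ μ U ω ≤ (∏ j ∈ U, w j) * (U.card + β).choose U.card := by
  have hw0 : ∀ j, 0 ≤ w j := fun j => zero_le_one.trans (hw j)
  induction ω generalizing U with
  | nil =>
    unfold LL; split_ifs with h
    · simp [h]
    · exact mul_nonneg (prod_nonneg fun j _ => hw0 j) (Nat.cast_nonneg _)
  | cons a ω ih =>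
    have h1 : ff κ μ U a ≤ (∏ j ∈ U ∩ a, w j) * (1 + (β : ℝ) / U.card) ^ (U ∩ a).card := by
      rw [← prod_const, ← prod_mul_distrib]
      calc ff κ μ U a ≤ 1 + ∑ j ∈ U ∩ a, β * w j / U.card := by
            have : 0 ≤ ∑ j ∈ U ∩ a, β * w j / U.card :=
              sum_nonneg fun j _ => by have := hw0 j; positivity
            unfold ff; split_ifs
            · linarith
            · have : 0 ≤ ∑ j ∈ U ∩ a, 1 / μ j := sum_nonneg fun j _ => by have := hμ j; positivity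
              refine (div_le_self (by positivity) (by linarith)).trans ?_
              rw [mul_sum]; gcongr with j hj
              calc _ = κ / μ j / U.card := by ring
                _ ≤ _ := by gcongr; exact hU j (mem_inter.1 hj).1
        _ ≤ ∏ j ∈ U ∩ a, (1 + β * w j / U.card) :=
            one_add_sum_le_prod_one_add _ _ fun j _ => by have := hw0 j; positivity
        _ ≤ _ := prod_le_prod (fun j _ => by have := hw0 j; positivity) fun j _ => by
            have := hw j; rw [mul_add]; exact add_le_add (by linarith) (le_of_eq (by ring))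
    have h2 := choose_step β (U \ a).card (U ∩ a).card
    rw [card_sdiff_add_card_inter] at h2
    calc LL κ μ U (a :: ω) ≤ (∏ j ∈ U ∩ a, w j) * (1 + (β : ℝ) / U.card) ^ (U ∩ a).card *
          ((∏ j ∈ U \ a, w j) * ((U \ a).card + β).choose (U \ a).card) :=
          mul_le_mul h1 (ih _ fun j hj => hU j (mem_sdiff.1 hj).1) (LL_nonneg hκ hμ _ _)
            ((ff_nonneg hκ hμ _ _).trans h1)
      _ = (∏ j ∈ U, w j) * ((1 + (β : ℝ) / U.card) ^ (U ∩ a).card *
          ((U \ a).card + β).choose (U \ a).card) := by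
          rw [← prod_inter_mul_prod_diff U a]; ring
      _ ≤ _ := mul_le_mul_of_nonneg_left h2 (prod_nonneg fun j _ => hw0 j)

lemma EE_LL_mul (hκ : 0 ≤ κ) (hp0 : ∀ a, 0 ≤ p a) (hp : ∑ a, p a = 1)
    (hμ : ∀ j, μ j = ∑ a, if j ∈ a then p a else 0) {θ : ℝ} (hθ : 0 ≤ θ) (N : ℕ) (U V : Finset ι)
    (hU : ∀ j ∈ U, 0 < μ j) (hV : ∀ j ∈ V, 0 < μ j)
    (hUV : ∀ j ∈ U, ∀ j' ∈ V, ∑ a, (if j ∈ a ∧ j' ∈ a then p a else 0) ≤ θ * μ j * μ j') :
    EE p N (fun ω => LL κ μ U ω * LL κ μ V ω) ≤ (1 + κ ^ 2 * θ) ^ N := by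
  have hμ0 : ∀ j, 0 ≤ μ j := fun j => hμ j ▸ sum_nonneg fun a _ => by split_ifs <;> simp [hp0]
  induction N generalizing U V with
  | zero => simp only [EE, LL]; split_ifs <;> norm_num
  | succ N ih =>
    have h1 : ∑ a, p a * (ff κ μ U a * ff κ μ V a) ≤ 1 + κ ^ 2 * θ := by
      have h0 : 0 ≤ κ ^ 2 * θ := by positivity
      by_cases hu : U = ∅
      · simp only [hu, ff, if_true, one_mul]; exact (sum_ff hκ hp hμ V hV).le.trans (by linarith)
      by_cases hv : V = ∅
      · simp only [hv, show ∀ a, ff κ μ ∅ a = 1 from fun a => if_pos rfl, mul_one]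
        exact (sum_ff hκ hp hμ U hU).le.trans (by linarith)
      have hcu : (0:ℝ) < U.card := by exact_mod_cast card_pos.2 (nonempty_iff_ne_empty.2 hu)
      have hcv : (0:ℝ) < V.card := by exact_mod_cast card_pos.2 (nonempty_iff_ne_empty.2 hv)
      have e1 : ∑ a, p a * ((∑ j ∈ U ∩ a, 1 / μ j) * ∑ j ∈ V ∩ a, 1 / μ j) ≤ U.card * (V.card * θ) := by
        simp only [← filter_mem_eq_inter, sum_filter, sum_mul_sum]
        simp only [mul_sum]
        rw [sum_comm, ← nsmul_eq_mul]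
        refine sum_le_card_nsmul _ _ _ fun j hj => ?_
        rw [sum_comm, ← nsmul_eq_mul]
        refine sum_le_card_nsmul _ _ _ fun j' hj' => ?_
        have := hU j hj
        have := hV j' hj'
        calc _ = (∑ a, (if j ∈ a ∧ j' ∈ a then p a else 0)) / (μ j * μ j') := by
              rw [sum_div]; refine sum_congr rfl fun a _ => ?_
              by_cases h1 : j ∈ a <;> by_cases h2 : j' ∈ a <;> simp [h1, h2]; ring
          _ ≤ θ * μ j * μ j' / (μ j * μ j') := by gcongr; exact hUV j hj j' hj'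
          _ = θ := by field_simp
      have e2 : ∑ a, p a * (ff κ μ U a * ff κ μ V a) = (∑ a, p a + κ / U.card *
          ∑ a, p a * ∑ j ∈ U ∩ a, 1 / μ j + κ / V.card * ∑ a, p a * ∑ j ∈ V ∩ a, 1 / μ j +
          κ / U.card * (κ / V.card) * ∑ a, p a * ((∑ j ∈ U ∩ a, 1 / μ j) * ∑ j ∈ V ∩ a, 1 / μ j)) /
            (1 + κ) ^ 2 := by
        rw [mul_sum, mul_sum, mul_sum, ← sum_add_distrib, ← sum_add_distrib, ← sum_add_distrib, sum_div]
        refine sum_congr rfl fun a _ => ?_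
        simp only [ff, if_neg hu, if_neg hv]; field_simp; ring
      rw [e2, hp, sum_inter hμ U hU, sum_inter hμ V hV, div_le_iff₀ (by positivity),
        div_mul_cancel₀ _ hcu.ne', div_mul_cancel₀ _ hcv.ne']
      have e3 := mul_le_mul_of_nonneg_left e1 (show 0 ≤ κ / U.card * (κ / V.card) by positivity)
      rw [show κ / U.card * (κ / V.card) * (U.card * (V.card * θ)) = κ ^ 2 * θ by field_simp] at e3
      nlinarith [mul_nonneg h0 hκ, mul_nonneg h0 (sq_nonneg κ)]
    have e0 : ∀ a, (fun ω => LL κ μ U (a :: ω) * LL κ μ V (a :: ω)) = fun ω =>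
        (ff κ μ U a * ff κ μ V a) * (LL κ μ (U \ a) ω * LL κ μ (V \ a) ω) :=
      fun a => funext fun ω => by simp only [LL]; ring
    simp only [EE, e0, EE_mul]
    rw [pow_succ']
    refine le_trans ?_ (mul_le_mul_of_nonneg_right h1 (by positivity))
    rw [sum_mul]
    refine sum_le_sum fun a _ => ?_
    rw [mul_assoc (p a)]
    exact mul_le_mul_of_nonneg_left (mul_le_mul_of_nonneg_left (ih _ _
      (fun j hj => hU j (mem_sdiff.1 hj).1) (fun j hj => hV j (mem_sdiff.1 hj).1)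
      fun j hj j' hj' => hUV j (mem_sdiff.1 hj).1 j' (mem_sdiff.1 hj').1)
      (mul_nonneg (ff_nonneg hκ hμ0 _ _) (ff_nonneg hκ hμ0 _ _))) (hp0 a)

lemma region (hκ : 0 ≤ κ) (hp0 : ∀ a, 0 ≤ p a) (hp : ∑ a, p a = 1)
    (hμ : ∀ j, μ j = ∑ a, if j ∈ a then p a else 0) {θ : ℝ} (hθ : 0 ≤ θ) (N : ℕ) {T : Type*}
    [Fintype T] [Nonempty T] (U : T → Finset ι) (hU : ∀ m, ∀ j ∈ U m, 0 < μ j)
    (hUV : ∀ m m', m ≠ m' → ∀ j ∈ U m, ∀ j' ∈ U m',
      ∑ a, (if j ∈ a ∧ j' ∈ a then p a else 0) ≤ θ * μ j * μ j') {β D : ℕ} {w : ι → ℝ}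
    (hw : ∀ j, 1 ≤ w j) (hw' : ∀ m, ∀ j ∈ U m, κ / μ j ≤ β * w j) (hD : ∀ m, (U m).card ≤ D)
    (hM : ∀ m, (∏ j ∈ U m, w j) * 2 ^ (D + β) ≤ Fintype.card T) (h1 : N * (κ ^ 2 * θ) ≤ 1 / 2)
    (hD0 : 0 < D) (h2 : 2 * D ≤ N * (κ / (1 + κ))) :
    EE p N (fun ω => if ∃ m, U m ⊆ un ω then 1 / 2 else 1) ≤ 23 / 24 := by
  classical
  have hμ0 : ∀ j, 0 ≤ μ j := fun j => hμ j ▸ sum_nonneg fun a _ => by split_ifs <;> simp [hp0]
  set M : ℝ := (Fintype.card T : ℝ) with hMd
  have hM0 : 0 < M := by rw [hMd]; exact_mod_cast Fintype.card_pos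
  have hD' : (0:ℝ) < D := by exact_mod_cast hD0
  have e1 : M / 2 ≤ ∑ m, EE p N (LL κ μ (U m)) := by
    refine le_trans (le_of_eq ?_) (card_nsmul_le_sum _ _ (1 / 2 : ℝ) fun m _ => ?_)
    · simp [hMd, div_eq_mul_inv]
    · have h3 := EE_LL_ge hκ hp0 hp hμ N (U m) (hU m)
      have h4 := EE_LL_le hκ hp0 hp hμ N (U m) (hU m)
      have h5 : ((U m).card : ℝ) ≤ D := by exact_mod_cast hD m
      nlinarith
  have e2 : ∀ m, ∑ m', EE p N (fun ω => LL κ μ (U m) ω * LL κ μ (U m') ω) ≤ 3 * M := by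
    intro m
    rw [← add_sum_erase _ _ (mem_univ m)]
    have a1 : EE p N (fun ω => LL κ μ (U m) ω * LL κ μ (U m) ω) ≤ M := by
      refine (EE_mono hp0 N (ψ := fun ω => M * LL κ μ (U m) ω) fun ω => mul_le_mul_of_nonneg_right
        ((LL_le hκ hμ0 hw _ (hw' m) ω).trans (le_trans ?_ (hM m))) (LL_nonneg hκ hμ0 _ _)).trans ?_
      · refine mul_le_mul_of_nonneg_left ?_ (prod_nonneg fun j _ => zero_le_one.trans (hw j))
        exact_mod_cast (Nat.choose_le_two_pow _ _).trans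
          (Nat.pow_le_pow_right two_pos (by have := hD m; omega))
      · rw [EE_mul]; exact mul_le_of_le_one_right hM0.le (EE_LL_le hκ hp0 hp hμ N _ (hU m))
    have a2 : (1 + κ ^ 2 * θ) ^ N ≤ 2 := by
      calc _ ≤ Real.exp (κ ^ 2 * θ) ^ N := by gcongr; linarith [Real.add_one_le_exp (κ ^ 2 * θ)]
        _ ≤ Real.exp (1 / 2) := by rw [← Real.exp_nat_mul]; gcongr
        _ ≤ 2 := by
          have := Real.abs_exp_sub_one_le (x := 1 / 2) (by norm_num [abs_of_pos])
          rw [abs_of_pos (show (0:ℝ) < 1 / 2 by norm_num)] at this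
          linarith [le_abs_self (Real.exp (1 / 2) - 1)]
    have a3 := sum_le_card_nsmul (univ.erase m) (fun m' => EE p N
      fun ω => LL κ μ (U m) ω * LL κ μ (U m') ω) 2 fun m' hm' => (EE_LL_mul hκ hp0 hp hμ hθ N _ _
        (hU m) (hU m') (hUV m m' (ne_of_mem_erase hm').symm)).trans a2
    have a4 : ((univ.erase m).card : ℝ) ≤ M := by rw [hMd]; exact_mod_cast card_le_univ _
    rw [nsmul_eq_mul] at a3
    linarith
  have e3 := sum_le_card_nsmul univ _ _ fun m _ => e2 m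
  rw [card_univ, nsmul_eq_mul, ← hMd] at e3
  refine (EE_mono hp0 N (ψ := fun ω => 1 + (-(1 / (6 * M)) * ∑ m, LL κ μ (U m) ω +
    1 / (72 * M ^ 2) * ∑ m, ∑ m', LL κ μ (U m) ω * LL κ μ (U m') ω)) fun ω => ?_).trans ?_
  · rw [← sum_mul_sum]
    split_ifs with h
    · have : ∀ z : ℝ, 1 + (-(1 / (6 * M)) * z + 1 / (72 * M ^ 2) * (z * z)) =
          1 / 2 + (1 - z / (6 * M)) ^ 2 / 2 := fun z => by field_simp; ring
      rw [this]; exact le_add_of_nonneg_right (by positivity)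
    · rw [sum_eq_zero fun m _ => by_contra fun h' => h ⟨m, LL_supp h'⟩]; simp
  · simp only [EE_add, EE_mul, EE_const hp, EE_sum]
    have b1 := mul_le_mul_of_nonneg_left e1 (show 0 ≤ 1 / (6 * M) by positivity)
    have b2 := mul_le_mul_of_nonneg_left e3 (show 0 ≤ 1 / (72 * M ^ 2) by positivity)
    rw [show 1 / (6 * M) * (M / 2) = 1 / 12 by field_simp; norm_num] at b1
    rw [show 1 / (72 * M ^ 2) * (M * (3 * M)) = 1 / 24 by field_simp; norm_num] at b2
    linarith

lemma NA2 (hp0 : ∀ a, 0 ≤ p a) (hp : ∑ a, p a = 1) (Φ Ψ : Finset ι → ℝ) (hΦ : Antitone Φ)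
    (hΨ : Antitone Ψ) (h : ∀ a, p a ≠ 0 → (∀ A, Φ (A ∪ a) = Φ A) ∨ ∀ A, Ψ (A ∪ a) = Ψ A) (N : ℕ)
    (A : Finset ι) : EE p N (fun ω => Φ (A ∪ un ω) * Ψ (A ∪ un ω)) ≤
      EE p N (fun ω => Φ (A ∪ un ω)) * EE p N fun ω => Ψ (A ∪ un ω) := by
  induction N generalizing A with
  | zero => rfl
  | succ N ih =>
    have hu : ∀ a ω, A ∪ un (a :: ω) = A ∪ a ∪ un ω := fun a ω => (union_assoc _ _ _).symm
    simp only [EE, hu]
    refine (sum_le_sum fun a _ => mul_le_mul_of_nonneg_left (ih (A ∪ a)) (hp0 a)).trans ?_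
    set x : Finset ι → ℝ := fun B => EE p N fun ω => Φ (B ∪ un ω) with hx
    set y : Finset ι → ℝ := fun B => EE p N fun ω => Ψ (B ∪ un ω) with hy
    have h1 : 0 ≤ ∑ a, p a * (x A - x (A ∪ a)) := sum_nonneg fun a _ => mul_nonneg (hp0 a)
      (sub_nonneg.2 (EE_mono hp0 N fun ω => hΦ (union_subset_union_left subset_union_left)))
    have h2 : 0 ≤ ∑ a, p a * (y A - y (A ∪ a)) := sum_nonneg fun a _ => mul_nonneg (hp0 a)
      (sub_nonneg.2 (EE_mono hp0 N fun ω => hΨ (union_subset_union_left subset_union_left)))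
    have h3 : ∑ a, p a * ((x A - x (A ∪ a)) * (y A - y (A ∪ a))) = 0 := sum_eq_zero fun a _ => by
      by_cases h0 : p a = 0
      · simp [h0]
      · rcases h a h0 with h | h
        · simp only [hx, union_right_comm A a, h, sub_self, zero_mul, mul_zero]
        · simp only [hy, union_right_comm A a, h, sub_self, mul_zero]
    have h4 : ∑ a, p a * ((x A - x (A ∪ a)) * (y A - y (A ∪ a))) = (∑ a, p a) * (x A * y A) -
        x A * ∑ a, p a * y (A ∪ a) - y A * ∑ a, p a * x (A ∪ a) +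
          ∑ a, p a * (x (A ∪ a) * y (A ∪ a)) := by
      rw [sum_mul, mul_sum, mul_sum, ← sum_sub_distrib, ← sum_sub_distrib, ← sum_add_distrib]
      exact sum_congr rfl fun a _ => by ring
    simp only [mul_sub, sum_sub_distrib, ← sum_mul, hp, one_mul] at h1 h2
    rw [h3, hp] at h4
    show ∑ a, p a * (x (A ∪ a) * y (A ∪ a)) ≤ (∑ a, p a * x (A ∪ a)) * ∑ a, p a * y (A ∪ a)
    nlinarith [mul_nonneg h1 h2]

lemma NA (hp0 : ∀ a, 0 ≤ p a) (hp : ∑ a, p a = 1) {R : Type*} (Φ : R → Finset ι → ℝ)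
    (hΦ : ∀ i, Antitone (Φ i)) (h0 : ∀ i A, 0 ≤ Φ i A)
    (h : ∀ a, p a ≠ 0 → ∀ i j, j ≠ i → (∀ A, Φ i (A ∪ a) = Φ i A) ∨ ∀ A, Φ j (A ∪ a) = Φ j A) (N : ℕ) (s : Finset R) :
    EE p N (fun ω => ∏ i ∈ s, Φ i (un ω)) ≤ ∏ i ∈ s, EE p N fun ω => Φ i (un ω) := by
  classical
  induction s using Finset.induction_on with
  | empty => simp [EE_const hp]
  | insert i s hi ih =>
    simp only [prod_insert hi]
    have := NA2 hp0 hp (Φ i) (fun A => ∏ i ∈ s, Φ i A) (hΦ i)
      (fun A B hAB => prod_le_prod (fun i _ => h0 i _) fun i _ => hΦ i hAB) (fun a ha => by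
        refine or_iff_not_imp_left.2 fun h' A => prod_congr rfl fun j hj => ?_
        exact (h a ha i j (by rintro rfl; exact hi hj)).resolve_left h' A) N ∅
    simp only [empty_union] at this
    exact this.trans (mul_le_mul_of_nonneg_left ih
      ((EE_const hp _ 0).symm.le.trans (EE_mono hp0 _ fun ω => h0 _ _)))

end Vale.Agent.P230
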