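import Mathlib

open MeasureTheory Filter
open scoped ENNReal Pointwise

namespace Vale.Agent.P230

/-- a convex body: compact, convex, with nonempty interior -/
def IsConvexBody {n : ℕ} (K : Set (EuclideanSpace ℝ (Fin n))) : Prop :=
  IsCompact K ∧ Convex ℝ K ∧ (interior K).Nonempty

/-- the cube `Q_R = [-R,R]^n` -/
def cube (n : ℕ) (R : ℝ) : Set (EuclideanSpace ℝ (Fin n)) := {x | ∀ i, x i ∈ Set.Icc (-R) R}

/-- every bounded set contains finitely many points of `X` -/
def LocFinite {n : ℕ} (X : Set (EuclideanSpace ℝ (Fin n))) : Prop :=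
  ∀ B, Bornology.IsBounded B → (X ∩ B).Finite

/-- the upper density `limsup_{R → ∞} #(X ∩ Q_R) / (2R)^n` -/
noncomputable def upperDensity {n : ℕ} (X : Set (EuclideanSpace ℝ (Fin n))) : ℝ≥0∞ :=
  limsup (fun R : ℝ => ((X ∩ cube n R).encard : ℝ≥0∞) / ENNReal.ofReal ((2 * R) ^ n)) atTop

/-- translative covering density -/
noncomputable def thetaT {n : ℕ} (K : Set (EuclideanSpace ℝ (Fin n))) : ℝ≥0∞ :=
  ⨅ (X : Set (EuclideanSpace ℝ (Fin n))) (_ : LocFinite X) (_ : K + X = Set.univ),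
    volume K * upperDensity X

/-- lattice covering density -/
noncomputable def thetaL {n : ℕ} (K : Set (EuclideanSpace ℝ (Fin n))) : ℝ≥0∞ :=
  ⨅ (Λ : Submodule ℤ (EuclideanSpace ℝ (Fin n))) (_ : DiscreteTopology Λ) (_ : IsZLattice ℝ Λ)
    (_ : K + (Λ : Set (EuclideanSpace ℝ (Fin n))) = Set.univ),
    volume K / ENNReal.ofReal (ZLattice.covolume Λ)

/-- worst-case translative covering density in dimension `n` -/
noncomputable def ThetaT (n : ℕ) : ℝ≥0∞ :=
  ⨆ (K : Set (EuclideanSpace ℝ (Fin n))) (_ : IsConvexBody K), thetaT K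

/-- worst-case lattice covering density in dimension `n` -/
noncomputable def ThetaL (n : ℕ) : ℝ≥0∞ :=
  ⨆ (K : Set (EuclideanSpace ℝ (Fin n))) (_ : IsConvexBody K), thetaL K

end Vale.Agent.P230
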