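import Mathlib

open MeasureTheory ProbabilityTheory Set
open scoped RealInnerProductSpace Real

namespace Vale.Agent.P230

/-- standard normal density -/
noncomputable def ph (x : ℝ) : ℝ := (√(2 * π))⁻¹ * Real.exp (-x ^ 2 / 2)

lemma ph_eq : gaussianPDFReal 0 1 = ph := by
  funext x; simp [gaussianPDFReal, ph]

lemma ph_pos (x : ℝ) : 0 < ph x := by unfold ph; positivity

lemma ph_int : Integrable ph := ph_eq ▸ integrable_gaussianPDFReal 0 1

/-- standard normal tail -/
noncomputable def tl (x : ℝ) : ℝ := (gaussianReal 0 1).real (Ioi x)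

lemma tl_eq (x : ℝ) : tl x = ∫ y in Ioi x, ph y := by
  rw [tl, measureReal_def, gaussianReal_apply_eq_integral _ one_ne_zero, ph_eq,
    ENNReal.toReal_ofReal (integral_nonneg fun y => (ph_pos y).le)]

lemma tl_anti {x y : ℝ} (h : x ≤ y) : tl y ≤ tl x :=
  measureReal_mono (Ioi_subset_Ioi h) (measure_ne_top _ _)

lemma tl_le {x : ℝ} (hx : 0 < x) : tl x ≤ ph x / x := by
  rw [tl_eq]
  have h1 := integrableOn_exp_mul_Ioi (neg_lt_zero.2 hx) x
  calc _ ≤ ∫ y in Ioi x, (√(2 * π))⁻¹ * Real.exp (x ^ 2 / 2) * Real.exp (-x * y) := by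
        refine setIntegral_mono ph_int.integrableOn (h1.const_mul _) fun y => ?_
        simp only [ph, mul_assoc, ← Real.exp_add]
        gcongr; nlinarith [sq_nonneg (x - y)]
    _ = _ := by
        rw [integral_const_mul, integral_exp_mul_Ioi (neg_lt_zero.2 hx), ph, neg_div_neg_eq,
          ← mul_div_assoc, mul_assoc, ← Real.exp_add]
        congr 3; ring

lemma tl_ge {x : ℝ} (hx : 1 ≤ x) : Real.exp (-2) * (ph x / x) ≤ tl x := by
  rw [tl_eq]
  have h0 : 0 < 1 / x := by positivity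
  have h1 : 1 / x ≤ 1 := (div_le_one (by linarith)).2 hx
  calc _ = ∫ _ in Ioc x (x + 1 / x), Real.exp (-2) * ph x := by
        simp [h0.le, ← one_div]; ring
    _ ≤ ∫ y in Ioc x (x + 1 / x), ph y := by
        refine setIntegral_mono_on (integrableOn_const (by simp)) ph_int.integrableOn measurableSet_Ioc fun y hy => ?_
        rw [ph, ph, mul_left_comm, ← Real.exp_add]
        gcongr
        have h2 : y ^ 2 ≤ (x + 1 / x) ^ 2 := by gcongr; exacts [by linarith [hy.1], hy.2]
        have h3 : x * (1 / x) = 1 := by field_simp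
        nlinarith
    _ ≤ _ := setIntegral_mono_set ph_int.integrableOn
        (Filter.Eventually.of_forall fun y => (ph_pos y).le) Ioc_subset_Ioi_self.eventuallyLE

lemma tl_le' {x y : ℝ} (hx : 1 ≤ x) (hy : x ≤ y) :
    tl y ≤ ph x / x * Real.exp (-(y ^ 2 - x ^ 2) / 2) := by
  refine (tl_le (by linarith)).trans ?_
  have := ph_pos y
  calc ph y / y ≤ ph y / x := by gcongr
    _ = _ := by rw [ph, ph, div_mul_eq_mul_div, mul_assoc, ← Real.exp_add]; congr 3; ring

lemma tl_ge' {x y : ℝ} (hx : 1 ≤ x) (hy : x ≤ y) (hy' : y ≤ 2 * x) :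
    ph x / x * Real.exp (-(y ^ 2 - x ^ 2) / 2 - 3) ≤ tl y := by
  refine le_trans ?_ (tl_ge (hx.trans hy))
  have := ph_pos y
  have h2 : Real.exp (-1) ≤ 1 / 2 := by
    rw [Real.exp_neg, ← one_div]; gcongr; linarith [Real.add_one_le_exp (1:ℝ)]
  calc _ = Real.exp (-2) * (ph y / x * Real.exp (-1)) := by
        rw [ph, ph]
        simp only [div_mul_eq_mul_div, ← mul_div_assoc, mul_assoc, ← Real.exp_add,
          mul_left_comm (Real.exp (-2))]
        congr 3; ring
    _ ≤ Real.exp (-2) * (ph y / x * (1 / 2)) := by gcongr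
    _ = Real.exp (-2) * (ph y / (2 * x)) := by ring
    _ ≤ _ := by gcongr; linarith

variable {n : ℕ}

/-- Euclidean space -/
abbrev E (n : ℕ) := EuclideanSpace ℝ (Fin n)

lemma gauss_half (v : E n) (hv : v ≠ 0) (s : ℝ) :
    (stdGaussian (E n)).real {g | s < ⟪v, g⟫} = tl (s / ‖v‖) := by
  have h0 : 0 < ‖v‖ := norm_pos_iff.2 hv
  set L : StrongDual ℝ (E n) := innerSL ℝ (‖v‖⁻¹ • v)
  have h1 := IsGaussian.map_eq_gaussianReal (μ := stdGaussian (E n)) L
  rw [integral_strongDual_stdGaussian, variance_dual_stdGaussian, innerSL_apply_norm, norm_smul,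
    norm_inv, norm_norm, inv_mul_cancel₀ h0.ne'] at h1
  rw [tl, show (1 : NNReal) = Real.toNNReal (1 ^ 2) by simp, ← h1,
    map_measureReal_apply L.continuous.measurable measurableSet_Ioi]
  congr 1; ext g
  simp [L, inner_smul_left, ← div_eq_inv_mul, div_lt_div_iff_of_pos_right h0]

lemma gauss_half_le (v : E n) {s x : ℝ} (hs : 0 < s) (hx : x * ‖v‖ ≤ s) :
    (stdGaussian (E n)).real {g | s < ⟪v, g⟫} ≤ tl x := by
  rcases eq_or_ne v 0 with rfl | hv
  · simp [hs.not_gt, tl]
  · rw [gauss_half v hv]; exact tl_anti ((le_div_iff₀ (norm_pos_iff.2 hv)).2 hx)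

lemma gauss_norm (a : ℝ) :
    (stdGaussian (E n)).real {g | a ≤ ‖g‖ ^ 2} ≤ Real.exp (-a / 4 + n) := by
  have h1 : ∀ x, ph x * Real.exp (x ^ 2 / 4) = (√(2 * π))⁻¹ * Real.exp (-(1 / 4) * x ^ 2) :=
    fun x => by rw [ph, mul_assoc, ← Real.exp_add]; congr 2; ring
  have h2 : Integrable (fun x => Real.exp (x ^ 2 / 4)) (gaussianReal 0 1) := by
    rw [gaussianReal_of_var_ne_zero _ one_ne_zero, integrable_withDensity_iff_integrable_smul'
      (measurable_gaussianPDF _ _) (Filter.Eventually.of_forall fun _ => gaussianPDF_lt_top)]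
    simp only [toReal_gaussianPDF, ph_eq, smul_eq_mul, h1]
    exact (integrable_exp_neg_mul_sq (by norm_num)).const_mul _
  have h3 : ∫ x, Real.exp (x ^ 2 / 4) ∂gaussianReal 0 1 ≤ Real.exp 1 := by
    rw [integral_gaussianReal_eq_integral_smul one_ne_zero]
    simp only [ph_eq, smul_eq_mul, h1]
    rw [integral_const_mul, integral_gaussian, inv_mul_le_iff₀ (by positivity)]
    have : √(π / (1 / 4)) ≤ √(2 * π) * 2 := by
      rw [Real.sqrt_le_left (by positivity), mul_pow, Real.sq_sqrt (by positivity)]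
      linarith [Real.pi_pos]
    exact this.trans (by gcongr; linarith [Real.add_one_le_exp (1:ℝ)])
  rw [← map_pi_eq_stdGaussian, map_measureReal_apply (by fun_prop)
    (measurableSet_le measurable_const (by fun_prop))]
  have h4 := mul_meas_ge_le_integral_of_nonneg (μ := Measure.pi fun _ : Fin n => gaussianReal 0 1)
    (f := fun x => ∏ i, Real.exp (x i ^ 2 / 4)) (Filter.Eventually.of_forall fun x => by positivity)
    (Integrable.fintype_prod fun _ => h2) (Real.exp (a / 4))
  rw [integral_fintype_prod_eq_pow (fun x : ℝ => Real.exp (x ^ 2 / 4)), Fintype.card_fin] at h4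
  have h5 : (WithLp.toLp 2 : (Fin n → ℝ) → E n) ⁻¹' {g | a ≤ ‖g‖ ^ 2} =
      {x | Real.exp (a / 4) ≤ ∏ i, Real.exp (x i ^ 2 / 4)} := by
    ext x
    simp only [mem_preimage, mem_ofPred_eq, ← Real.exp_sum, Real.exp_le_exp, EuclideanSpace.real_norm_sq_eq,
      ← Finset.sum_div]
    constructor <;> intro h <;> linarith
  rw [h5]
  refine le_of_mul_le_mul_left (h4.trans ?_) (Real.exp_pos (a / 4))
  calc _ ≤ Real.exp 1 ^ n := by gcongr
    _ = _ := by rw [← Real.exp_nat_mul, ← Real.exp_add]; congr 1; ring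

end Vale.Agent.P230
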