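import Vale.Agent.P230.Gauss

open MeasureTheory Finset Metric
open scoped RealInnerProductSpace Real BigOperators

namespace Vale.Agent.P230

variable {n : ℕ}

/-- volume of the unit ball -/
noncomputable def V (n : ℕ) : ℝ := volume.real (ball (0 : E n) 1)

lemma V_pos : 0 < V n :=
  ENNReal.toReal_pos (measure_ball_pos _ _ one_pos).ne' measure_ball_lt_top.ne

lemma vol_cb (x : E n) {ρ : ℝ} (h : 0 ≤ ρ) : volume.real (closedBall x ρ) = ρ ^ n * V n := by
  rw [measureReal_def, Measure.addHaar_closedBall _ _ h, ENNReal.toReal_mul,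
    ENNReal.toReal_ofReal (by positivity)]
  simp [V, measureReal_def]

lemma vol_cb_le (x : E n) (ρ : ℝ) : volume.real (closedBall x ρ) ≤ Real.exp (n * (ρ - 1)) * V n := by
  rcases lt_or_ge ρ 0 with h | h
  · rw [closedBall_eq_empty.2 h, measureReal_empty]; exact mul_nonneg (Real.exp_pos _).le V_pos.le
  · rw [vol_cb x h, Real.exp_nat_mul]
    have := V_pos (n := n)
    gcongr; linarith [Real.add_one_le_exp (ρ - 1)]

lemma exists_sep {ρ δ : ℝ} (hρ : 0 ≤ ρ) (hδ : 0 < δ) (P : ℕ) (h : P * δ ^ n ≤ ρ ^ n) :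
    ∃ c : Fin P → E n, (∀ i, ‖c i‖ ≤ ρ) ∧ ∀ i j, i ≠ j → δ ≤ ‖c i - c j‖ := by
  induction P with
  | zero => exact ⟨Fin.elim0, by simp, by simp⟩
  | succ P ih =>
    have h0 : 0 < δ ^ n := by positivity
    push_cast at h
    obtain ⟨c, h1, h2⟩ := ih (by linarith)
    have : ¬ closedBall (0 : E n) ρ ⊆ ⋃ i, closedBall (c i) δ := by
      intro hs
      have h3 := (measureReal_mono (μ := volume) hs (isCompact_iUnion fun i =>
        isCompact_closedBall _ _).measure_lt_top.ne).trans (measureReal_iUnion_fintype_le _)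
      simp only [vol_cb _ hρ, vol_cb _ hδ.le, sum_const, card_univ, Fintype.card_fin,
        nsmul_eq_mul] at h3
      nlinarith [V_pos (n := n), mul_pos h0 (V_pos (n := n))]
    obtain ⟨x, hx, hx'⟩ := Set.not_subset.1 this
    simp only [Set.mem_iUnion, mem_closedBall, not_exists, not_le, dist_eq_norm] at hx'
    refine ⟨Fin.cons x c, fun i => ?_, fun i j hij => ?_⟩
    · refine Fin.cases ?_ (fun i => h1 i) i
      simpa using hx
    · induction i using Fin.cases <;> induction j using Fin.cases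
      · exact (hij rfl).elim
      · exact (hx' _).le
      · exact norm_sub_rev x _ ▸ (hx' _).le
      · exact h2 _ _ fun h => hij (congrArg _ h)

lemma colouring {α : Type*} [Fintype α] (A : α → α → Prop) [DecidableRel A]
    (hs : ∀ a b, A a b → A b a) {Δ : ℕ} (hd : ∀ a, (univ.filter (A a)).card ≤ Δ) :
    ∃ col : α → Fin (Δ + 1), ∀ a b, a ≠ b → A a b → col a ≠ col b := by
  classical
  suffices ∀ s : Finset α, ∃ col : α → Fin (Δ + 1), ∀ a ∈ s, ∀ b ∈ s, a ≠ b → A a b → col a ≠ col b by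
    obtain ⟨col, h⟩ := this univ
    exact ⟨col, fun a b => h a (mem_univ _) b (mem_univ _)⟩
  intro s
  induction s using Finset.induction_on with
  | empty => exact ⟨0, by simp⟩
  | insert x s hx ih =>
    obtain ⟨col, h⟩ := ih
    obtain ⟨k, -, hk⟩ := exists_mem_notMem_of_card_lt_card (s := (univ.filter (A x)).image col)
      (t := univ) (by have := (card_image_le (f := col)).trans (hd x); simp; omega)
    have hk' : ∀ b, A x b → col b ≠ k := fun b hb h => hk (mem_image.2 ⟨b, by simpa using hb, h⟩)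
    refine ⟨Function.update col x k, fun a ha b hb hab hA => ?_⟩
    by_cases h1 : a = x <;> by_cases h2 : b = x
    · exact (hab (h1.trans h2.symm)).elim
    · subst h1; simpa [h2] using (hk' b hA).symm
    · subst h2; simpa [h1] using hk' a (hs _ _ hA)
    · simpa [h1, h2] using h a (by simpa [h1] using ha) b (by simpa [h2] using hb) hab hA

lemma conflict_col {P k : ℕ} {δ : ℝ} (c : Fin P → E n) (hc : ∀ i j, i ≠ j → 2 * δ ≤ ‖c i - c j‖)
    (X : Finset (E n)) (hX : X.card ≤ k) : ∃ col : Fin P → Fin (k ^ 2 + 1), ∀ i j, i ≠ j →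
      col i = col j → ∀ x ∈ X, ∀ x' ∈ X, δ ≤ ‖(c i - x) - (c j - x')‖ := by
  classical
  obtain ⟨col, h⟩ := colouring (fun i j => ∃ x ∈ X, ∃ x' ∈ X, ‖(c i - x) - (c j - x')‖ < δ)
    (fun a b ⟨x, hx, x', hx', h⟩ => ⟨x', hx', x, hx, by rwa [norm_sub_rev]⟩) (Δ := k ^ 2) fun i => by
      calc _ ≤ ((X ×ˢ X).biUnion fun q => univ.filter fun j =>
            ‖(c i - q.1) - (c j - q.2)‖ < δ).card := card_le_card fun j hj => by
              obtain ⟨x, hx, x', hx', h⟩ := (mem_filter.1 hj).2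
              exact mem_biUnion.2 ⟨(x, x'), mem_product.2 ⟨hx, hx'⟩, by simpa using h⟩
        _ ≤ (X ×ˢ X).card * 1 := card_biUnion_le_card_mul _ _ _ fun q _ => card_le_one.2
              fun a ha b hb => by_contra fun hab => by
                have h1 := (mem_filter.1 ha).2
                have h2 := (mem_filter.1 hb).2
                have h3 := hc a b hab
                have h4 := norm_sub_le ((c i - q.1) - (c b - q.2)) ((c i - q.1) - (c a - q.2))
                rw [show (c i - q.1) - (c b - q.2) - ((c i - q.1) - (c a - q.2)) = c a - c b by abel]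
                  at h4
                linarith
        _ ≤ _ := by rw [card_product, mul_one, sq]; gcongr
  exact ⟨col, fun i j hij hcol x hx x' hx' => not_lt.1 fun h' => h i j hij ⟨x, hx, x', hx', h'⟩ hcol⟩

lemma exists_grid {η : ℝ} (hη : 0 < η) (J : ℕ) (hJ : 2 * n / η + 1 ≤ J) :
    ∃ (Gr : Finset (E n)) (rnd : E n → E n), Gr.card ≤ (2 * J + 1) ^ n ∧
      ∀ v, ‖v‖ ≤ 2 → rnd v ∈ Gr ∧ ‖rnd v - v‖ ≤ η := by
  classical
  rcases Nat.eq_zero_or_pos n with rfl | hn
  · exact ⟨{0}, fun _ => 0, by simp, fun v _ => ⟨by simp, by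
      rw [Subsingleton.elim (0 - v) 0]; simpa using hη.le⟩⟩
  have hn' : (1:ℝ) ≤ n := by exact_mod_cast hn
  set e := η / n with he
  have he0 : 0 < e := by positivity
  refine ⟨(Fintype.piFinset fun _ : Fin n => Finset.Icc (-J : ℤ) J).image
    fun a => WithLp.toLp 2 fun i => e * a i, fun v => WithLp.toLp 2 fun i => e * ⌊v i / e⌋,
    card_image_le.trans (le_of_eq ?_), fun v hv => ⟨mem_image.2 ⟨fun i => ⌊v i / e⌋,
      Fintype.mem_piFinset.2 fun i => ?_, rfl⟩, ?_⟩⟩
  · simp only [Fintype.card_piFinset, Int.card_Icc, prod_const, card_univ, Fintype.card_fin]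
    congr 1; omega
  · have h1 := abs_le.1 ((PiLp.norm_apply_le v i).trans hv)
    have h2 : 2 / e + 1 ≤ J := by rwa [he, div_div_eq_mul_div]
    have h3 : v i / e ≤ 2 / e := by gcongr; exact h1.2
    have h4 : -2 / e ≤ v i / e := by gcongr; exact h1.1
    rw [neg_div] at h4
    refine mem_Icc.2 ⟨Int.le_floor.2 (by push_cast; linarith), ?_⟩
    have : (⌊v i / e⌋ : ℝ) ≤ J := by linarith [Int.floor_le (v i / e)]
    exact_mod_cast this
  · refine (sq_le_sq₀ (norm_nonneg _) hη.le).1 ?_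
    rw [EuclideanSpace.real_norm_sq_eq]
    refine (sum_le_card_nsmul _ _ (e ^ 2) fun i _ => ?_).trans ?_
    · have h1 := Int.floor_le (v i / e)
      have h2 := Int.lt_floor_add_one (v i / e)
      rw [le_div_iff₀ he0] at h1
      rw [div_lt_iff₀ he0] at h2
      simp only [PiLp.sub_apply]
      exact sq_le_sq' (by linarith) (by linarith)
    · rw [card_univ, Fintype.card_fin, nsmul_eq_mul, he, div_pow, sq (n:ℝ), ← div_div,
        mul_div_cancel₀ _ (by positivity)]
      exact div_le_self (by positivity) hn'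

/-- number of shells containing a point -/
noncomputable def cnt (I : ℕ) (ρ : ℝ) (z : E n) : ℝ :=
  ∑ i ∈ range I, if ‖z‖ ≤ ρ - i / n then 1 else 0

/-- weight of a point -/
noncomputable def wt (I D : ℕ) (ρ : ℝ) (z : E n) : ℝ :=
  cnt I ρ z + if ‖z‖ ≤ ρ - I / n then (D : ℝ) else 0

lemma cnt_nonneg (I : ℕ) (ρ : ℝ) (z : E n) : 0 ≤ cnt I ρ z :=
  sum_nonneg fun _ _ => by split_ifs <;> norm_num

lemma cnt_le (I : ℕ) (ρ : ℝ) (z : E n) : cnt I ρ z ≤ I :=
  (sum_le_card_nsmul _ _ 1 fun _ _ => by split_ifs <;> norm_num).trans (by simp)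

lemma cnt_le_wt (I D : ℕ) (ρ : ℝ) (z : E n) : cnt I ρ z ≤ wt I D ρ z :=
  le_add_of_nonneg_right (by split_ifs <;> positivity)

lemma wt_nonneg (I D : ℕ) (ρ : ℝ) (z : E n) : 0 ≤ wt I D ρ z :=
  (cnt_nonneg _ _ _).trans (cnt_le_wt _ _ _ _)

lemma wt_mono (I D : ℕ) {ρ ρ' : ℝ} {z z' : E n} (h : ‖z'‖ - ρ' ≤ ‖z‖ - ρ) :
    wt I D ρ z ≤ wt I D ρ' z' := by
  refine add_le_add (sum_le_sum fun i _ => ?_) ?_
  all_goals
    split_ifs with h1 h2
    · rfl
    · exact (h2 (by linarith)).elim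
    · positivity
    · rfl

lemma cnt_ge (hn : 0 < n) {I D : ℕ} {z : E n} (h1 : ‖z‖ ≤ 1) (h2 : wt I D 1 z < D) :
    1 ≤ cnt I 1 z ∧ 1 - cnt I 1 z / n ≤ ‖z‖ := by
  have hn' : (0:ℝ) < n := by exact_mod_cast hn
  have h3 : 1 - I / n < ‖z‖ := by
    by_contra h; rw [wt, if_pos (not_lt.1 h)] at h2; linarith [cnt_nonneg I 1 z]
  set u := n * (1 - ‖z‖) with hu
  have hu0 : 0 ≤ u := mul_nonneg hn'.le (by linarith)
  have hu1 : u < I := by rw [hu, ← lt_div_iff₀' hn']; linarith
  have h4 : ((⌊u⌋₊ + 1 : ℕ) : ℝ) ≤ cnt I 1 z := by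
    rw [cnt, sum_boole, Nat.cast_le, ← card_range (⌊u⌋₊ + 1)]
    refine card_le_card fun i hi => ?_
    have : (i : ℝ) ≤ u := (Nat.le_floor_iff hu0).1 (Nat.lt_succ_iff.1 (mem_range.1 hi))
    refine mem_filter.2 ⟨mem_range.2 (by exact_mod_cast this.trans_lt hu1), ?_⟩
    rw [hu, ← div_le_iff₀' hn'] at this; linarith
  have h5 := Nat.lt_floor_add_one u
  push_cast at h4
  refine ⟨by linarith [Nat.cast_nonneg (α := ℝ) ⌊u⌋₊], ?_⟩
  have : 1 - ‖z‖ ≤ cnt I 1 z / n := by rw [le_div_iff₀' hn']; linarith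
  linarith

lemma ind_int (x : E n) (ρ a : ℝ) : Integrable (fun v => if ‖x - v‖ ≤ ρ then a else 0) ∧
    ∫ v, (if ‖x - v‖ ≤ ρ then a else 0) = volume.real (closedBall x ρ) * a := by
  have : (fun v => if ‖x - v‖ ≤ ρ then a else 0) = (closedBall x ρ).indicator fun _ => a := by
    funext v; simp [Set.indicator, dist_eq_norm, norm_sub_rev]
  rw [this, integral_indicator_const _ measurableSet_closedBall, smul_eq_mul]
  exact ⟨(integrableOn_const measure_closedBall_lt_top.ne).integrable_indicator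
    measurableSet_closedBall, rfl⟩

lemma wt_int (hn : 0 < n) {I D : ℕ} (h : D * Real.exp (1 - I) ≤ 1) (x : E n) :
    Integrable (fun v => wt I D (1 + 1 / n) (x - v)) ∧
      ∫ v, wt I D (1 + 1 / n) (x - v) ≤ 7 * V n := by
  have hn' : (0:ℝ) < n := by exact_mod_cast hn
  have hV := V_pos (n := n)
  have h1 : Integrable fun v => cnt I (1 + 1 / n) (x - v) :=
    integrable_finsetSum _ fun i _ => (ind_int x _ _).1
  refine ⟨h1.add (ind_int x _ _).1, ?_⟩
  unfold wt
  rw [integral_add h1 (ind_int x _ _).1]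
  unfold cnt
  rw [integral_finsetSum _ fun i _ => (ind_int x _ _).1]
  simp only [(ind_int x _ _).2, mul_one]
  have h2 : ∀ i : ℕ, volume.real (closedBall x (1 + 1 / n - i / n)) ≤ Real.exp (1 - i) * V n :=
    fun i => (vol_cb_le _ _).trans (le_of_eq (by congr 2; field_simp; ring))
  have h3 : ∑ i ∈ range I, Real.exp (1 - i) ≤ 6 := by
    calc _ ≤ ∑ i ∈ range I, 3 * (1 / 2 : ℝ) ^ i := sum_le_sum fun i _ => by
          rw [sub_eq_add_neg, Real.exp_add, ← mul_neg_one, Real.exp_nat_mul]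
          gcongr
          · exact Real.exp_one_lt_three.le
          · rw [Real.exp_neg, ← one_div]; gcongr; linarith [Real.add_one_le_exp (1:ℝ)]
      _ ≤ _ := by rw [← mul_sum]; linarith [sum_geometric_two_le I]
  have h4 := sum_le_sum fun i (_ : i ∈ range I) => h2 i
  rw [← sum_mul] at h4
  have h5 := mul_le_mul_of_nonneg_right (h2 I) (Nat.cast_nonneg (α := ℝ) D)
  nlinarith

end Vale.Agent.P230
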