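import Vale.Agent.P230.Numer
import Vale.Agent.P230.Defs

open MeasureTheory Finset Metric Filter
open scoped RealInnerProductSpace BigOperators Classical ENNReal Pointwise

namespace Vale.Agent.P230

variable {n : ℕ}

lemma mem_cube {R : ℝ} {x : E n} : x ∈ cube n R ↔ ∀ i, |x i| ≤ R := by simp [cube, abs_le]

lemma cube_eq (R : ℝ) : cube n R = WithLp.ofLp ⁻¹' (Set.pi Set.univ fun _ => Set.Icc (-R) R) := by
  ext x; simp [cube, Pi.le_def, forall_and]

lemma cube_meas (R : ℝ) : MeasurableSet (cube n R) := by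
  rw [cube_eq]
  exact (PiLp.volume_preserving_ofLp (Fin n)).measurable (MeasurableSet.univ_pi fun _ => measurableSet_Icc)

lemma vol_cube {R : ℝ} (hR : 0 ≤ R) : volume (cube n R) = ENNReal.ofReal ((2 * R) ^ n) := by
  rw [cube_eq, (PiLp.volume_preserving_ofLp (Fin n)).measure_preimage
    (MeasurableSet.univ_pi fun _ => measurableSet_Icc).nullMeasurableSet, volume_pi_pi]
  simp [two_mul, ENNReal.ofReal_pow (add_nonneg hR hR)]

lemma cube_bdd (R : ℝ) : Bornology.IsBounded (cube n R) := by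
  refine isBounded_iff_forall_norm_le.2 ⟨√(n * R ^ 2), fun x hx => Real.le_sqrt_of_sq_le ?_⟩
  rw [EuclideanSpace.real_norm_sq_eq]
  refine (sum_le_card_nsmul _ _ (R ^ 2) fun i _ => ?_).trans (by simp)
  exact sq_le_sq' (hx i).1 (hx i).2

lemma dens_lower {K : Set (E n)} (hK : ∀ x ∈ K, ‖x‖ ≤ 1) {W : E n → ℝ} (h0 : ∀ v, 0 ≤ W v)
    (hW : Integrable W) {w : ℝ} (hw0 : 0 < w) (hw : ∫ v, W v ≤ w)
    (h : ∀ X : Finset (E n), (∀ y : E n, ‖y‖ ≤ 1 → ∃ v ∈ X, y - v ∈ K) → 1 ≤ ∑ v ∈ X, W v)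
    {X : Set (E n)} (hX : LocFinite X) (hc : K + X = Set.univ) :
    ENNReal.ofReal (1 / (2 * w)) ≤ upperDensity X := by
  refine le_limsup_of_frequently_le (((eventually_ge_atTop (4 * n + 2 : ℝ)).mono
    fun R hR => ?_).frequently)
  have hn : (0:ℝ) ≤ n := Nat.cast_nonneg n
  obtain ⟨S, hS⟩ := (hX _ (cube_bdd R)).exists_finset_coe
  have h1 : ∀ a ∈ cube n (R - 2), 1 ≤ ∑ v ∈ S, W (v - a) := fun a ha => by
    rw [← sum_image (f := W) fun _ _ _ _ h => sub_left_injective h]
    refine h _ fun y hy => ?_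
    obtain ⟨k, hk, v, hv, hkv⟩ := hc.ge (Set.mem_univ (y + a))
    have e1 : v = a + (y - k) := by rw [← eq_sub_iff_add_eq'] at hkv; rw [hkv]; abel
    refine ⟨v - a, mem_image_of_mem _ (mem_coe.1 (hS ▸ ⟨hv, mem_cube.2 fun i => ?_⟩)), by
      rw [e1]; simpa using hk⟩
    have e2 := (PiLp.norm_apply_le (y - k) i).trans (norm_sub_le _ _)
    rw [e1, PiLp.add_apply]
    exact (abs_add_le _ _).trans (by linarith [mem_cube.1 ha i, hK k hk, Real.norm_eq_abs ((y - k) i)])
  have hi : ∀ v, Integrable fun a => W (v - a) := fun v => hW.comp_sub_left v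
  have h2 : (2 * (R - 2)) ^ n ≤ S.card * w := by
    calc _ = ∫ _ in cube n (R - 2), (1:ℝ) := by
          rw [setIntegral_const, measureReal_def, vol_cube (by linarith), ENNReal.toReal_ofReal
            (pow_nonneg (by linarith) _), smul_eq_mul, mul_one]
      _ ≤ ∫ a in cube n (R - 2), ∑ v ∈ S, W (v - a) :=
          setIntegral_mono_on (integrableOn_const (cube_bdd _).measure_lt_top.ne)
            (integrable_finsetSum _ fun v _ => hi v).integrableOn (cube_meas _) h1
      _ ≤ ∫ a, ∑ v ∈ S, W (v - a) := setIntegral_le_integral (integrable_finsetSum _ fun v _ => hi v)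
          (Eventually.of_forall fun a => sum_nonneg fun _ _ => h0 _)
      _ ≤ _ := by
          rw [integral_finsetSum _ fun v _ => hi v, ← nsmul_eq_mul]
          exact sum_le_card_nsmul _ _ _ fun v _ => by rwa [integral_sub_left_eq_self]
  have hR0 : 0 < R := by linarith
  have h3 : (2 * R) ^ n / 2 ≤ (2 * (R - 2)) ^ n := by
    have := one_add_mul_le_pow (a := -(2 / R)) (by
      rw [neg_le_neg_iff, div_le_iff₀ hR0]; linarith) n
    have h4 : n * (2 / R) ≤ 1 / 2 := by rw [mul_div_assoc', div_le_iff₀ hR0]; linarith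
    rw [show 2 * (R - 2) = 2 * R * (1 + -(2 / R)) by field_simp; ring, mul_pow (2 * R),
      div_eq_mul_one_div]
    gcongr; linarith
  rw [← hS, Set.encard_coe_eq_coe_finsetCard, ENat.toENNReal_coe, ← ENNReal.ofReal_natCast,
    ← ENNReal.ofReal_div_of_pos (by positivity)]
  refine ENNReal.ofReal_le_ofReal ?_
  rw [div_le_div_iff₀ (by positivity) (by positivity)]
  linarith

lemma covol_upper {K : Set (E n)} (hK : ∀ x ∈ K, ‖x‖ ≤ 1) {W : E n → ℝ} (h0 : ∀ v, 0 ≤ W v)
    (hW : Integrable W)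
    (h : ∀ X : Finset (E n), (∀ y : E n, ‖y‖ ≤ 1 → ∃ v ∈ X, y - v ∈ K) → 1 ≤ ∑ v ∈ X, W v)
    (Λ : Submodule ℤ (E n)) [DiscreteTopology Λ] [IsZLattice ℝ Λ] (hc : K + (Λ : Set (E n)) = Set.univ) :
    ZLattice.covolume Λ ≤ ∫ v, W v := by
  have hF := ZLattice.isAddFundamentalDomain (Module.Free.chooseBasis ℤ Λ) volume
  have : MeasurableVAdd Λ (E n) := (inferInstance : MeasurableVAdd Λ.toAddSubgroup (E n))
  have : VAddInvariantMeasure Λ (E n) volume :=
    (inferInstance : VAddInvariantMeasure Λ.toAddSubgroup (E n) volume)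
  have : Countable Λ := countable_of_Lindelof_of_discrete
  rw [ZLattice.covolume_eq_measure_fundamentalDomain Λ volume hF]
  refine ENNReal.toReal_le_of_le_ofReal (integral_nonneg h0) ?_
  rw [ofReal_integral_eq_lintegral_ofReal hW (Eventually.of_forall h0), hF.lintegral_eq_tsum'',
    ← lintegral_tsum fun v => ?_, ← setLIntegral_one]
  · refine lintegral_mono fun a => ?_
    have hfin : (closedBall (0 : E n) (‖a‖ + 2) ∩ Λ).Finite := by
      have := ZSpan.setFinite_inter ((Module.Free.chooseBasis ℤ Λ).ofZLatticeBasis ℝ Λ)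
        (isBounded_closedBall (x := (0 : E n)) (r := ‖a‖ + 2))
      rwa [Module.Basis.ofZLatticeBasis_span] at this
    obtain ⟨S, hS⟩ := (hfin.preimage (f := ((↑) : Λ → E n)) Subtype.val_injective.injOn).exists_finset_coe
    refine le_trans ?_ (ENNReal.sum_le_tsum S)
    rw [← ENNReal.ofReal_sum_of_nonneg fun _ _ => h0 _, ENNReal.one_le_ofReal,
      ← sum_image (f := W) (g := fun v : Λ => v +ᵥ a)
        fun _ _ _ _ h => Subtype.val_injective (add_left_injective a h)]
    refine h _ fun y hy => ?_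
    obtain ⟨k, hk, v, hv, hkv⟩ := hc.ge (Set.mem_univ (y - a))
    have e1 : v = (y - k) - a := by rw [← eq_sub_iff_add_eq'] at hkv; rw [hkv]; abel
    refine ⟨v + a, mem_image.2 ⟨⟨v, hv⟩, mem_coe.1 (hS ▸ ⟨?_, hv⟩), rfl⟩, by rw [e1]; simpa using hk⟩
    have := norm_sub_le (y - k) a
    rw [mem_closedBall_zero_iff, Subtype.coe_mk, e1]
    linarith [norm_sub_le y k, hK k hk]
  · exact ((hW.comp_add_left (v : E n)).aemeasurable.ennreal_ofReal).restrict

lemma body_convexBody {N : ℕ} {t η : ℝ} (g : Fin N → E n) (h : 0 < volume.real (body t η g)) :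
    IsConvexBody (body t η g) := by
  have e : body t η g = closedBall 0 (1 - η) ∩ ⋂ s, ⋂ _ : ‖g s‖ ≤ 2 * t, {x | ⟪x, g s⟫ ≤ t} := by
    ext x; simp [body]
  have hc : Convex ℝ (body t η g) := e ▸ (convex_closedBall _ _).inter (convex_iInter₂ fun s _ =>
    convex_halfSpace_le ⟨fun _ _ => inner_add_left _ _ _, fun _ _ => real_inner_smul_left _ _ _⟩ _)
  refine ⟨e ▸ (isCompact_closedBall _ _).inter_right (isClosed_iInter fun s => isClosed_iInter fun _ =>
    isClosed_le (by fun_prop) continuous_const), hc, ?_⟩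
  by_contra hi
  rw [Set.not_nonempty_iff_eq_empty] at hi
  have := hc.addHaar_frontier volume
  rw [frontier, hi, Set.diff_empty] at this
  simp [measureReal_def, measure_mono_null subset_closure this] at h

theorem lower : ∀ᶠ n : ℕ in atTop, ∃ K : Set (E n), IsConvexBody K ∧
    ENNReal.ofReal (1 / 10 ^ 11 * n * Real.log n) ≤ thetaT K ∧
    ENNReal.ofReal (1 / 10 ^ 11 * n * Real.log n) ≤ thetaL K := by
  filter_upwards [eventually_ge_atTop ((10 ^ 10) ^ 10)] with n hn
  have hn' : (((10:ℝ) ^ 10) ^ 10) ≤ n := by exact_mod_cast hn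
  have hn0 : (0:ℝ) < n := lt_of_lt_of_le (by positivity) hn'
  obtain ⟨m, hm0, hm⟩ : ∃ m : ℝ, 0 < m ∧ (n:ℝ) = m ^ 10 :=
    ⟨n ^ ((10:ℕ):ℝ)⁻¹, by positivity, (Real.rpow_inv_natCast_pow hn0.le (by norm_num)).symm⟩
  obtain ⟨t, r, r', δ, η, I, D, k, L, M, N, s₀, J, h, h', hD⟩ :=
    numerics (le_of_pow_le_pow_left₀ (by norm_num) hm0.le (hn'.trans hm.le)) hm
  obtain ⟨g, W, h1, h2, h3, h4, h5⟩ := local_body h h'
  have hV := V_pos (n := n)
  have hD0 : (0:ℝ) < D := by exact_mod_cast h.D0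
  have hK := body_convexBody g (lt_of_lt_of_le (by positivity) h1)
  have hK1 : ∀ x ∈ body t η g, ‖x‖ ≤ 1 := fun x hx => by linarith [hx.1, h'.e0]
  have h6 : ENNReal.ofReal (V n / 4) ≤ volume (body t η g) :=
    ENNReal.ofReal_le_of_le_toReal h1
  have h7 : 1 / 10 ^ 11 * n * Real.log n ≤ D / 1136 := by
    have : Real.log n = 10 * Real.log m := by rw [hm, Real.log_pow]; norm_num
    rw [this]; linarith
  refine ⟨_, hK, le_iInf fun X => le_iInf₂ fun hX hc => ?_, le_iInf fun Λ => le_iInf fun _ =>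
    le_iInf₂ fun _ hc => ?_⟩
  · refine le_trans ?_ (mul_le_mul' h6 (dens_lower hK1 h2 h3 (by positivity) h4 h5 hX hc))
    rw [← ENNReal.ofReal_mul (by positivity)]
    exact ENNReal.ofReal_le_ofReal (h7.trans (le_of_eq (by field_simp; norm_num)))
  · refine le_trans ?_ (ENNReal.div_le_div h6 (ENNReal.ofReal_le_ofReal
      ((covol_upper hK1 h2 h3 h5 Λ hc).trans h4)))
    rw [← ENNReal.ofReal_div_of_pos (by positivity)]
    refine ENNReal.ofReal_le_ofReal (h7.trans ?_)
    rw [show V n / 4 / (142 * V n / D) = D / 568 by field_simp; norm_num]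
    linarith

end Vale.Agent.P230
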