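import Vale.Agent.P230.Config

open MeasureTheory ProbabilityTheory Finset Metric
open scoped RealInnerProductSpace Real BigOperators Classical

namespace Vale.Agent.P230

variable {n : ℕ}

/-- further numerical conditions -/
structure Num2 (n : ℕ) (t r r' δ η : ℝ) (I D k L M N s₀ J : ℕ) : Prop where
  e0 : 0 < η
  e1 : η * (2 * t) ≤ 1 / t
  e2 : n * η ≤ 1 / 2
  L0 : 0 < L
  k0 : 0 < k
  n1 : 4 * N * (ph t / t) ≤ 1
  j1 : 2 * n / η + 1 ≤ J
  u1 : ((k + 1) * ((2 * J + 1) ^ n) ^ k * (k ^ 2 + 1) : ℕ) * (1 / 2 ^ s₀ : ℝ) ≤ 1 / 4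
  u2 : 125 * ((k ^ 2 + 1) * s₀) ≤ L
  p1 : L * (r / 2) ^ n ≤ r ^ n
  p2 : (2 * ((k ^ 2 + 1) * M) : ℕ) * (2 * δ) ^ n ≤ r' ^ n
  w1 : D * Real.exp (1 - I) ≤ 1
  w2 : D * Real.exp (n * (2 * r ^ 2)) ≤ k
  w3 : 100 * D * Real.exp (-(n * (r ^ 2 / 4))) ≤ 1

lemma good_body {t r r' δ η : ℝ} {I D k L M N s₀ J : ℕ} (h : Num n t r r' δ I D k L M N)
    (h' : Num2 n t r r' δ η I D k L M N s₀ J)
    (c : Fin L → E n) (hc : ∀ i j, i ≠ j → r / 2 ≤ ‖c i - c j‖) (d : Fin (2 * ((k ^ 2 + 1) * M)) → E n)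
    (hd : ∀ j, ‖d j‖ ≤ r') (hd' : ∀ i j, i ≠ j → 2 * δ ≤ ‖d i - d j‖) (Gr : Finset (E n))
    (hG : Gr.card ≤ (2 * J + 1) ^ n) : ∃ g : Fin N → E n, V n / 4 ≤ volume.real (body t η g) ∧
      ∀ X ⊆ Gr, X.card ≤ k → ∃ y : Fin L → Fin M → E n, (∀ i m, ‖y i m - c i‖ ≤ r') ∧
        (univ.filter fun i => Good I D (c i) d X).card ≤
          50 * ((univ.filter fun i => Succ t (y i) X g).card + (k ^ 2 + 1) * s₀) := by
  have h1 := fun X : {X : Finset (E n) // X.card ≤ k} => config h c hc d hd hd' s₀ X.1 X.2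
  choose y hy hy' using h1
  set T : Finset {X : Finset (E n) // X.card ≤ k} :=
    ((range (k + 1)).biUnion fun j => powersetCard j Gr).subtype _ with hT
  have hn : (1:ℝ) ≤ n := by exact_mod_cast h.n0
  have hTc : T.card ≤ (k + 1) * ((2 * J + 1) ^ n) ^ k := by
    rw [hT, card_subtype]
    refine (card_filter_le _ _).trans ((card_biUnion_le_card_mul _ _ _ fun j hj => ?_).trans
      (by rw [card_range]))
    rw [card_powersetCard]
    refine (Nat.choose_le_pow _ _).trans ((Nat.pow_le_pow_left hG _).trans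
      (Nat.pow_le_pow_right (by positivity) (Nat.lt_succ_iff.1 (mem_range.1 hj))))
  obtain ⟨g, hg, hV⟩ := exists_body (n := n) (η := η) (by linarith [h.t2]) h'.n1 h'.e0.le h'.e2
    (by nlinarith [h'.e0, h'.e2]) (⋃ X ∈ T, {g | 50 * ((univ.filter fun i =>
        Succ t (y X i) X.1 g).card + (k ^ 2 + 1) * s₀) <
          (univ.filter fun i => Good I D (c i) d X.1).card}) (by
      refine (measureReal_biUnion_finset_le _ _).trans ((sum_le_card_nsmul _ _ _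
        fun X _ => hy' X).trans (le_trans ?_ h'.u1))
      rw [nsmul_eq_mul, ← mul_assoc, ← Nat.cast_mul]
      gcongr)
  refine ⟨g, hV, fun X hX hk => ⟨y ⟨X, hk⟩, hy _, not_lt.1 fun hlt => hg ?_⟩⟩
  refine Set.mem_iUnion₂.2 ⟨⟨X, hk⟩, ?_, hlt⟩
  simpa [hT, Nat.lt_succ_iff] using ⟨hk, hX⟩

/-- the local weight function -/
noncomputable def WW {L P : ℕ} (r r' : ℝ) (I D k : ℕ) (c : Fin L → E n) (d : Fin P → E n)
    (v : E n) : ℝ :=
  (if ‖0 - v‖ ≤ √((1 + r') ^ 2 + 3 * r ^ 2) then 1 / (k:ℝ) else 0) +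
    ∑ i, (if ‖2 • c i - v‖ ≤ 1 - r ^ 2 / 4 then 100 / (L:ℝ) else 0) +
      20 / (L * P * D) * ∑ i, ∑ j, wt I D (1 + 1 / n) (c i + d j - v)

lemma WW_nonneg {L P : ℕ} (r r' : ℝ) (I D k : ℕ) (c : Fin L → E n) (d : Fin P → E n) (v : E n) :
    0 ≤ WW r r' I D k c d v :=
  add_nonneg (add_nonneg (by split_ifs <;> positivity) (sum_nonneg fun _ _ => by
    split_ifs <;> positivity)) (mul_nonneg (by positivity) (sum_nonneg fun _ _ =>
      sum_nonneg fun _ _ => wt_nonneg _ _ _ _))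

lemma WW_int {t r r' δ η : ℝ} {I D k L M N s₀ J P : ℕ} (h : Num n t r r' δ I D k L M N)
    (h' : Num2 n t r r' δ η I D k L M N s₀ J) (hP : 0 < P) (c : Fin L → E n) (d : Fin P → E n) :
    Integrable (WW r r' I D k c d) ∧ ∫ v, WW r r' I D k c d v ≤ 142 * V n / D := by
  have a1 := ind_int (0 : E n) (√((1 + r') ^ 2 + 3 * r ^ 2)) (1 / (k:ℝ))
  have a2 := fun i => ind_int (2 • c i) (1 - r ^ 2 / 4) (100 / (L:ℝ))
  have a3 := fun i j => wt_int h.n0 h'.w1 (c i + d j)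
  have b2 := integrable_finsetSum univ fun i _ => (a2 i).1
  have b3 := fun i => integrable_finsetSum univ fun j _ => (a3 i j).1
  have b4 := (integrable_finsetSum univ fun i _ => b3 i).const_mul (20 / (L * P * D : ℝ))
  have b5 : Integrable fun v : E n => (if ‖0 - v‖ ≤ √((1 + r') ^ 2 + 3 * r ^ 2) then 1 / (k:ℝ)
    else 0) + ∑ i, if ‖2 • c i - v‖ ≤ 1 - r ^ 2 / 4 then 100 / (L:ℝ) else 0 := a1.1.add b2
  refine ⟨b5.add b4, ?_⟩
  have hV := V_pos (n := n)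
  have hD : (0:ℝ) < D := by exact_mod_cast h.D0
  have hL : (0:ℝ) < L := by exact_mod_cast h'.L0
  have hk : (0:ℝ) < k := by exact_mod_cast h'.k0
  have hP' : (0:ℝ) < P := by exact_mod_cast hP
  unfold WW
  rw [integral_add b5 b4, integral_add a1.1 b2, integral_const_mul,
    integral_finsetSum _ fun i _ => (a2 i).1, integral_finsetSum _ fun i _ => b3 i, a1.2]
  simp only [(a2 _).2, integral_finsetSum _ fun j _ => (a3 _ j).1]
  have c1 : volume.real (closedBall (0 : E n) (√((1 + r') ^ 2 + 3 * r ^ 2))) * (1 / k) ≤ V n / D := by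
    have : √((1 + r') ^ 2 + 3 * r ^ 2) ≤ 1 + 2 * r ^ 2 := by
      have := h.r0; have := h.r1; have := h.r2; have := h.r3
      exact Real.sqrt_le_iff.2 ⟨by positivity, by nlinarith⟩
    rw [mul_one_div, div_le_div_iff₀ hk hD]
    calc _ ≤ Real.exp (n * (2 * r ^ 2)) * V n * D := by
          refine mul_le_mul_of_nonneg_right ((vol_cb_le _ _).trans ?_) hD.le
          gcongr; linarith
      _ ≤ _ := by nlinarith [h'.w2]
  have c2 : ∑ i, volume.real (closedBall (2 • c i) (1 - r ^ 2 / 4)) * (100 / L) ≤ V n / D := by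
    refine (sum_le_card_nsmul _ _ _ fun i _ => mul_le_mul_of_nonneg_right (vol_cb_le _ _)
      (by positivity)).trans ?_
    rw [card_univ, Fintype.card_fin, nsmul_eq_mul, le_div_iff₀ hD,
      show (n:ℝ) * (1 - r ^ 2 / 4 - 1) = -(n * (r ^ 2 / 4)) by ring]
    calc _ = 100 * D * Real.exp (-(n * (r ^ 2 / 4))) * V n := by field_simp
      _ ≤ _ := by nlinarith [h'.w3]
  have c3 : 20 / (L * P * D : ℝ) * ∑ i, ∑ j, ∫ v, wt I D (1 + 1 / n) (c i + d j - v) ≤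
      140 * V n / D := by
    refine (mul_le_mul_of_nonneg_left (sum_le_card_nsmul _ _ _ fun i _ => sum_le_card_nsmul _ _ _
      fun j _ => (a3 i j).2) (by positivity)).trans (le_of_eq ?_)
    simp only [card_univ, Fintype.card_fin, nsmul_eq_mul]
    field_simp; norm_num
  calc _ ≤ V n / D + V n / D + 140 * V n / D := by gcongr
    _ = _ := by ring

set_option maxHeartbeats 400000 in
lemma WW_sum {t r r' δ η : ℝ} {I D k L M N s₀ J P : ℕ} (h : Num n t r r' δ I D k L M N)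
    (h' : Num2 n t r r' δ η I D k L M N s₀ J) (hP : 0 < P) (c : Fin L → E n) (hc : ∀ i, ‖c i‖ ≤ r)
    (d : Fin P → E n) (Gr : Finset (E n)) (rnd : E n → E n)
    (hr : ∀ v, ‖v‖ ≤ 2 → rnd v ∈ Gr ∧ ‖rnd v - v‖ ≤ η) (g : Fin N → E n)
    (hg : ∀ X ⊆ Gr, X.card ≤ k → ∃ y : Fin L → Fin M → E n, (∀ i m, ‖y i m - c i‖ ≤ r') ∧
        (univ.filter fun i => Good I D (c i) d X).card ≤
          50 * ((univ.filter fun i => Succ t (y i) X g).card + (k ^ 2 + 1) * s₀))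
    (X : Finset (E n)) (hX : ∀ y : E n, ‖y‖ ≤ 1 → ∃ v ∈ X, y - v ∈ body t η g) :
    1 ≤ ∑ v ∈ X, WW r r' I D k c d v := by
  have hD : (0:ℝ) < D := by exact_mod_cast h.D0
  have hL : (0:ℝ) < L := by exact_mod_cast h'.L0
  have hk : (0:ℝ) < k := by exact_mod_cast h'.k0
  have hP' : (0:ℝ) < P := by exact_mod_cast hP
  have hn : (1:ℝ) ≤ n := by exact_mod_cast h.n0
  have hr0 := h.r0
  have hr1 := h.r1
  have hr2 := h.r2
  have hr3 := h.r3
  have he := h'.e0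
  by_contra hcon
  rw [not_le] at hcon
  simp only [WW, sum_add_distrib, ← mul_sum] at hcon
  obtain ⟨ρ, hρ⟩ : ∃ ρ, ρ = √((1 + r') ^ 2 + 3 * r ^ 2) := ⟨_, rfl⟩
  rw [← hρ] at hcon
  have hρ2 : ρ ^ 2 = (1 + r') ^ 2 + 3 * r ^ 2 := hρ ▸ Real.sq_sqrt (by positivity)
  have hρ0 : 0 ≤ ρ := hρ ▸ Real.sqrt_nonneg _
  have hr4 : r ^ 2 ≤ 1 / 4 := by nlinarith
  have hr5 : r' ^ 2 ≤ r' := by nlinarith
  have hρ1 : ρ ≤ 2 := (sq_le_sq₀ hρ0 two_pos.le).1 (by nlinarith)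
  have p1 : 0 ≤ ∑ v ∈ X, if ‖0 - v‖ ≤ ρ then 1 / (k:ℝ) else 0 :=
    sum_nonneg fun _ _ => by split_ifs <;> positivity
  have p2 : 0 ≤ ∑ v ∈ X, ∑ i, if ‖2 • c i - v‖ ≤ 1 - r ^ 2 / 4 then 100 / (L:ℝ) else 0 :=
    sum_nonneg fun _ _ => sum_nonneg fun _ _ => by split_ifs <;> positivity
  have p3 : 0 ≤ 20 / (L * P * D : ℝ) * ∑ v ∈ X, ∑ i, ∑ j, wt I D (1 + 1 / n) (c i + d j - v) :=
    mul_nonneg (by positivity) (sum_nonneg fun _ _ => sum_nonneg fun _ _ =>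
      sum_nonneg fun _ _ => wt_nonneg _ _ _ _)
  obtain ⟨X₁, hX₁⟩ : ∃ X₁, X₁ = X.filter fun v => ‖0 - v‖ ≤ ρ := ⟨_, rfl⟩
  have hX₁' : ∀ v ∈ X₁, v ∈ X ∧ ‖v‖ ≤ 2 := fun v hv => by
    rw [hX₁, mem_filter, zero_sub, norm_neg] at hv; exact ⟨hv.1, hv.2.trans hρ1⟩
  have q1 : X₁.card ≤ k := by
    have : (X₁.card : ℝ) * (1 / k) < 1 := by
      rw [← nsmul_eq_mul, ← sum_const, hX₁, sum_filter]; linarith
    rw [mul_one_div, div_lt_one hk] at this
    exact_mod_cast this.le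
  obtain ⟨y, hy, hy'⟩ := hg (X₁.image rnd) (image_subset_iff.2 fun v hv => (hr v (hX₁' v hv).2).1)
    (card_image_le.trans q1)
  obtain ⟨T, hT⟩ : ∃ T, T = univ.filter fun i => ∃ v ∈ X, ‖2 • c i - v‖ ≤ 1 - r ^ 2 / 4 := ⟨_, rfl⟩
  have q2 : (T.card : ℝ) * (100 / L) < 1 := by
    rw [← nsmul_eq_mul, ← sum_const]
    refine lt_of_le_of_lt ?_ (show ∑ v ∈ X, ∑ i, (if ‖2 • c i - v‖ ≤ 1 - r ^ 2 / 4 then
      100 / (L:ℝ) else 0) < 1 by linarith)
    rw [sum_comm, hT, sum_filter]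
    refine sum_le_sum fun i _ => ?_
    split_ifs with hi
    · obtain ⟨v, hv, hv'⟩ := hi
      refine le_trans (le_of_eq (if_pos hv').symm) (single_le_sum (f := fun v =>
        if ‖2 • c i - v‖ ≤ 1 - r ^ 2 / 4 then 100 / (L:ℝ) else 0) (fun _ _ => ?_) hv)
      split_ifs <;> positivity
    · exact sum_nonneg fun _ _ => by split_ifs <;> positivity
  obtain ⟨G, hG⟩ : ∃ G, G = univ.filter fun i => ¬ Good I D (c i) d (X₁.image rnd) := ⟨_, rfl⟩
  have q3 : 20 / (L * P * D : ℝ) * (G.card * (P * D / 2)) < 1 := by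
    refine lt_of_le_of_lt (mul_le_mul_of_nonneg_left ?_ (by positivity))
      (show 20 / (L * P * D : ℝ) * ∑ v ∈ X, ∑ i, ∑ j, wt I D (1 + 1 / n) (c i + d j - v) < 1 by
        linarith)
    rw [← nsmul_eq_mul, ← sum_const, sum_comm, hG, sum_filter]
    refine sum_le_sum fun i _ => ?_
    split_ifs with hi
    · exact sum_nonneg fun _ _ => sum_nonneg fun _ _ => wt_nonneg _ _ _ _
    rw [Good, not_le] at hi
    have h1 := card_filter_add_card_filter_not (s := univ)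
      fun j => ∑ x ∈ X₁.image rnd, wt I D 1 (c i + d j - x) < D
    rw [card_univ, Fintype.card_fin] at h1
    have h2 : (P:ℝ) ≤ 2 * (univ.filter fun j =>
        ¬ ∑ x ∈ X₁.image rnd, wt I D 1 (c i + d j - x) < D).card := by
      exact_mod_cast (by omega : P ≤ 2 * (univ.filter fun j =>
        ¬ ∑ x ∈ X₁.image rnd, wt I D 1 (c i + d j - x) < D).card)
    rw [sum_comm]
    calc _ ≤ ((univ.filter fun j => ¬ ∑ x ∈ X₁.image rnd, wt I D 1 (c i + d j - x) < D).card : ℝ)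
          * D := by nlinarith
      _ ≤ _ := ?_
    rw [← nsmul_eq_mul, ← sum_const, sum_filter]
    refine sum_le_sum fun j _ => ?_
    split_ifs with hj
    · exact sum_nonneg fun _ _ => wt_nonneg _ _ _ _
    refine (not_lt.1 hj).trans ((sum_image_le_of_nonneg fun _ _ => wt_nonneg _ _ _ _).trans
      ((sum_le_sum fun v hv => wt_mono _ _ ?_).trans (sum_le_sum_of_subset_of_nonneg
        (fun v hv => (hX₁' v hv).1) fun _ _ _ => wt_nonneg _ _ _ _)))
    have h3 := (hr v (hX₁' v hv).2).2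
    have h4 := norm_add_le (c i + d j - rnd v) (rnd v - v)
    rw [sub_add_sub_cancel] at h4
    have h5 : η ≤ 1 / n := by rw [le_div_iff₀ (by linarith)]; linarith [h'.e2]
    linarith
  have q4 := card_filter_add_card_filter_not (s := univ) fun i => Good I D (c i) d (X₁.image rnd)
  rw [← hG, card_univ, Fintype.card_fin] at q4
  have q5 : 10 * G.card < L := by
    have : 20 / (L * P * D : ℝ) * (G.card * (P * D / 2)) = 10 * G.card / L := by
      field_simp; ring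
    rw [this, div_lt_one hL] at q3
    exact_mod_cast q3
  have q6 : 100 * T.card < L := by
    rw [mul_div_assoc', div_lt_one hL, mul_comm] at q2
    exact_mod_cast q2
  have := h'.u2
  obtain ⟨i, hi, hi'⟩ := exists_mem_notMem_of_card_lt_card (s := T)
    (t := univ.filter fun i => Succ t (y i) (X₁.image rnd) g) (by omega)
  obtain ⟨m, hm⟩ := (mem_filter.1 hi).2
  have h1 := hy i m
  have h2 := hc i
  obtain ⟨v, hv, hv1, hv2⟩ := hX (y i m) (by
    have := norm_add_le (y i m - c i) (c i)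
    rw [sub_add_cancel] at this; nlinarith)
  have h3 : v ∈ X₁ := by
    by_contra h3
    refine hi' (hT ▸ mem_filter.2 ⟨mem_univ _, v, hv, ?_⟩)
    rw [hX₁, mem_filter, not_and, zero_sub, norm_neg, not_le] at h3
    have h4 := h3 hv
    have h5 : ‖c i - v‖ ≤ 1 + r' := by
      have := norm_sub_le (y i m - v) (y i m - c i)
      rw [sub_sub_sub_cancel_left] at this; linarith
    have h6 := parallelogram_law_with_norm ℝ (c i) (c i - v)
    rw [sub_sub_cancel, ← add_sub_assoc, ← two_nsmul] at h6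
    refine (sq_le_sq₀ (norm_nonneg _) (by nlinarith)).1 ?_
    have h7 : ‖c i - v‖ ^ 2 ≤ (1 + r') ^ 2 := by gcongr
    have h8 : ‖c i‖ ^ 2 ≤ r ^ 2 := by gcongr
    have h9 : ρ ^ 2 ≤ ‖v‖ ^ 2 := by gcongr
    nlinarith
  have h4 := (hr v (hX₁' v h3).2).2
  obtain ⟨s, hs, hs'⟩ := hm _ (mem_image_of_mem rnd h3) (by
    have := norm_sub_le (y i m - v) (rnd v - v)
    rw [sub_sub_sub_cancel_right] at this; linarith)
  have h5 := hv2 s hs
  have h6 := abs_real_inner_le_norm (rnd v - v) (g s)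
  have h7 : ‖rnd v - v‖ * ‖g s‖ ≤ η * (2 * t) := by gcongr
  rw [show y i m - rnd v = (y i m - v) - (rnd v - v) by abel, inner_sub_left] at hs'
  linarith [h'.e1, (abs_le.1 h6).1]

lemma local_body {t r r' δ η : ℝ} {I D k L M N s₀ J : ℕ} (h : Num n t r r' δ I D k L M N)
    (h' : Num2 n t r r' δ η I D k L M N s₀ J) : ∃ (g : Fin N → E n) (W : E n → ℝ),
      V n / 4 ≤ volume.real (body t η g) ∧ (∀ v, 0 ≤ W v) ∧ Integrable W ∧
      ∫ v, W v ≤ 142 * V n / D ∧ ∀ X : Finset (E n),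
        (∀ y : E n, ‖y‖ ≤ 1 → ∃ v ∈ X, y - v ∈ body t η g) → 1 ≤ ∑ v ∈ X, W v := by
  obtain ⟨c, hc, hc'⟩ := exists_sep h.r0.le (half_pos h.r0) L h'.p1
  obtain ⟨d, hd, hd'⟩ := exists_sep h.r2 (mul_pos two_pos h.d0) _ h'.p2
  obtain ⟨Gr, rnd, hG, hr⟩ := exists_grid (n := n) h'.e0 J h'.j1
  obtain ⟨g, hg, hg'⟩ := good_body h h' c hc' d hd hd' Gr hG
  have hP : 0 < 2 * ((k ^ 2 + 1) * M) := by have := h.M0; positivity
  exact ⟨g, _, hg, WW_nonneg _ _ _ _ _ c d, (WW_int h h' hP c d).1, (WW_int h h' hP c d).2,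
    WW_sum h h' hP c hc d Gr rnd hr g hg'⟩

end Vale.Agent.P230
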