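import Vale.Agent.P230.Local

open Real

namespace Vale.Agent.P230

lemma exp_le_of {a b c : ℝ} (ha : a ≤ exp b) (h : b ≤ c) : a ≤ exp c := ha.trans (exp_le_exp.2 h)

lemma le_exp' (a : ℝ) : a ≤ exp a := by linarith [add_one_le_exp a]

set_option maxHeartbeats 1000000 in
lemma numerics {n : ℕ} {m : ℝ} (hm : 10 ^ 10 ≤ m) (hn : (n:ℝ) = m ^ 10) :
    ∃ (t r r' δ η : ℝ) (I D k L M N s₀ J : ℕ), Num n t r r' δ I D k L M N ∧
      Num2 n t r r' δ η I D k L M N s₀ J ∧ n * log m / 1200000 ≤ D := by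
  have m0 : 0 < m := by linarith
  have m1 : 1 ≤ m := by linarith
  have pw : ∀ i j : ℕ, i < j → 10 ^ 10 * m ^ i ≤ m ^ j := fun i j hij =>
    calc _ ≤ m ^ (i + 1) := by rw [pow_succ' m]; gcongr
      _ ≤ _ := pow_le_pow_right₀ m1 hij
  have p12 := pw 1 2 (by norm_num)
  have p25 := pw 2 5 (by norm_num)
  have p58 := pw 5 8 (by norm_num)
  have p80 := pw 8 10 (by norm_num)
  rw [pow_one] at p12
  have n0 : (0:ℝ) < n := by rw [hn]; positivity
  have n0' : 0 < n := by exact_mod_cast n0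
  have l3 : 3 ≤ log m := by
    rw [le_log_iff_exp_le m0, show (3:ℝ) = (3:ℕ) * 1 by norm_num, exp_nat_mul]
    calc _ ≤ (3:ℝ) ^ 3 := by gcongr; exact exp_one_lt_three.le
      _ ≤ _ := by linarith
  have l4 : log m ≤ m := by linarith [log_le_sub_one_of_pos m0]
  have l2 : 1 / 2 ≤ log 2 := by linarith [log_two_gt_d9]
  have l1 : log 2 ≤ 1 := by linarith [log_two_lt_d9]
  obtain ⟨t, ht⟩ : ∃ t, t = 200 * m ^ 5 := ⟨_, rfl⟩
  have tn : t ^ 2 = 40000 * n := by rw [ht, hn]; ring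
  have t2 : 2 ≤ t := by linarith
  obtain ⟨P, hP⟩ : ∃ P, P = ph t / t := ⟨_, rfl⟩
  have s1 : 1 ≤ √(2 * π) := one_le_sqrt.2 (by linarith [pi_gt_three])
  have s3 : √(2 * π) ≤ 3 := sqrt_le_iff.2 ⟨by norm_num, by linarith [pi_le_four]⟩
  have hP0 : 0 < P := by have := ph_pos t; rw [hP]; positivity
  have hP1 : P ≤ exp (-(20000 * n)) := by
    rw [hP, ph, show -t ^ 2 / 2 = -(20000 * n) by rw [tn]; ring]
    refine (div_le_self (by positivity) (by linarith)).trans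
      (mul_le_of_le_one_left (exp_pos _).le (inv_le_one_of_one_le₀ s1))
  have hP2 : exp (-(20000 * n) - 3 * t) ≤ P := by
    rw [hP, ph, show -t ^ 2 / 2 = -(20000 * n) by rw [tn]; ring, exp_sub, inv_mul_eq_div, div_div]
    gcongr
    exact le_trans (by gcongr) (le_exp' _)
  have hP3 : P ≤ 1 / 8 := hP1.trans (by
    rw [exp_neg, ← one_div]; gcongr; linarith [le_exp' (20000 * n)])
  obtain ⟨I, hI⟩ : ∃ I, I = ⌈m⌉₊ := ⟨_, rfl⟩
  have I1 : m ≤ I := hI ▸ Nat.le_ceil _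
  have I2 : I ≤ 2 * m := by have := Nat.ceil_lt_add_one m0.le; rw [← hI] at this; linarith
  obtain ⟨D, hD⟩ : ∃ D, D = ⌊n * log m / 600000⌋₊ := ⟨_, rfl⟩
  have D1 : D ≤ n * log m / 600000 := hD ▸ Nat.floor_le (by positivity)
  have D2 : n * log m / 1200000 ≤ D := by
    have := Nat.lt_floor_add_one (n * log m / 600000)
    rw [← hD] at this; nlinarith
  have D3 : D ≤ m ^ 11 := by
    have : n * log m ≤ m ^ 11 := by rw [hn, pow_succ m 10]; gcongr
    have : 0 ≤ n * log m := by positivity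
    linarith
  have D4 : D ≤ exp (11 * m) := D3.trans (by
    rw [show 11 * m = (11:ℕ) * m by norm_num, exp_nat_mul]; gcongr; exact le_exp' m)
  obtain ⟨k, hk⟩ : ∃ k, k = ⌈exp (3 * m ^ 8)⌉₊ := ⟨_, rfl⟩
  have k1 : exp (3 * m ^ 8) ≤ k := hk ▸ Nat.le_ceil _
  have k2 : k ≤ exp (4 * m ^ 8) := by
    have := Nat.ceil_lt_add_one (exp_pos (3 * m ^ 8)).le
    rw [← hk] at this
    rw [show 4 * m ^ 8 = m ^ 8 + 3 * m ^ 8 by ring, exp_add]
    nlinarith [le_exp' (m ^ 8), le_exp' (3 * m ^ 8)]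
  have k3 : ∀ j : ℕ, (k:ℝ) ^ j ≤ exp (j * (4 * m ^ 8)) := fun j => by rw [exp_nat_mul]; gcongr
  have k0 : (1:ℝ) ≤ k := by linarith [le_exp' (3 * m ^ 8)]
  have k0' : 1 ≤ k := by exact_mod_cast k0
  obtain ⟨M, hM⟩ : ∃ M, M = ⌈exp (200033 * D)⌉₊ := ⟨_, rfl⟩
  have M1 : exp (200033 * D) ≤ M := hM ▸ Nat.le_ceil _
  have M2 : M ≤ 2 * exp (200033 * D) := by
    have := Nat.ceil_lt_add_one (exp_pos (200033 * D)).le
    rw [← hM] at this
    linarith [one_le_exp (x := 200033 * D) (by positivity)]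
  obtain ⟨N, hN⟩ : ∃ N, N = ⌊1 / (4 * P)⌋₊ := ⟨_, rfl⟩
  have N1 : 4 * N * P ≤ 1 := by
    have := Nat.floor_le (a := 1 / (4 * P)) (by positivity)
    rw [← hN, le_div_iff₀ (by positivity)] at this; linarith
  have N2 : 1 ≤ 8 * P * N := by
    have := Nat.lt_floor_add_one (1 / (4 * P))
    rw [← hN, div_lt_iff₀ (by positivity)] at this; linarith
  have e2 : (2:ℝ) ≤ exp 1 := by linarith [add_one_le_exp 1]
  refine ⟨t, 1 / m, 1 / m ^ 3, 1 / m ^ 4, 1 / (80000 * n), I, D, k, k ^ 4, M, N, 8 * n ^ 2 * k,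
    160000 * n ^ 2 + 1, ⟨n0', t2, tn, ?_, by positivity, ?_, by positivity, ?_, by positivity, ?_, ?_,
      ?_, ?_, ?_, ?_, M1, hP ▸ N2, ?_⟩, ⟨by positivity, ?_, ?_, by positivity, k0', hP ▸ N1, ?_, ?_,
      ?_, ?_, ?_, ?_, ?_, ?_⟩, D2⟩
  · have : 4 * (I:ℝ) ≤ n := by linarith
    exact_mod_cast this
  · gcongr; linarith
  · rw [div_pow, div_div, one_pow, pow_succ m 2]; gcongr; linarith
  · exact div_le_one_of_le₀ (one_le_pow₀ m1) (by positivity)
  · have : (0:ℝ) < D := lt_of_lt_of_le (by positivity) D2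
    exact_mod_cast this
  · have : (0:ℝ) < M := (exp_pos _).trans_le M1
    exact_mod_cast this
  · rw [← hP, le_div_iff₀ two_pos]
    calc _ ≤ exp (-t ^ 2 + n) * exp 1 := by gcongr
      _ ≤ exp (-(20000 * n) - 3 * t) * exp (-(200000 * I)) := by
          rw [← exp_add, ← exp_add, exp_le_exp]; linarith
      _ ≤ _ := by gcongr
  · rw [le_div_iff₀ two_pos, Nat.cast_pow, ← pow_succ,
      show t ^ 2 * ((1 / m) ^ 2 / 1000) = 40 * m ^ 8 by rw [ht]; field_simp; norm_num]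
    calc _ ≤ exp ((5:ℕ) * (4 * m ^ 8)) * exp (-(40 * m ^ 8)) * exp 1 := by gcongr; exact k3 5
      _ ≤ _ := by rw [← exp_add, ← exp_add]; gcongr; push_cast; linarith
  · rw [le_div_iff₀ two_pos,
      show t ^ 2 * ((1 / m ^ 4) ^ 2 / 8) = 5000 * m ^ 2 by rw [ht]; field_simp; norm_num]
    calc _ ≤ exp 128 * exp (11 * m) ^ 2 * exp (-(5000 * m ^ 2) + 400000 * I) * exp 1 := by
          gcongr; exact le_exp' _
      _ ≤ _ := by rw [← exp_nat_mul, ← exp_add, ← exp_add, ← exp_add, exp_le_one_iff]; push_cast; linarith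
  · have : 8 * P * (4 * D) ≤ 8 * P * N := by
      refine le_trans ?_ N2
      calc _ = 32 * P * D := by ring
        _ ≤ exp 32 * exp (-(20000 * n)) * exp (11 * m) := by gcongr; exact le_exp' _
        _ ≤ _ := by rw [← exp_add, ← exp_add, exp_le_one_iff]; linarith
    exact_mod_cast le_of_mul_le_mul_left this (by positivity)
  · rw [le_div_iff₀ (by linarith), mul_assoc, mul_assoc, ← sq, tn]; field_simp; norm_num
  · field_simp; norm_num
  · push_cast; exact le_of_eq (by field_simp; ring)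
  · rw [mul_one_div, div_le_div_iff₀ (by positivity) (by norm_num), one_mul]
    have a1 : 2 * (160000 * n ^ 2 + 1) + 1 ≤ 2 ^ (3 * n) := by
      have b1 : 400000 ≤ n := by
        have : (400000:ℝ) ≤ n := by linarith
        exact_mod_cast this
      calc _ ≤ n ^ 3 := by nlinarith
        _ ≤ _ := by rw [mul_comm, pow_mul]; gcongr; exact Nat.lt_two_pow_self.le
    have a2 : k + 1 ≤ 2 ^ k := Nat.lt_two_pow_self
    have a3 : k ^ 2 + 1 ≤ (2 ^ k) ^ 2 := Nat.pow_lt_pow_left a2 two_ne_zero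
    have a4 : 2 ^ 2 ≤ 2 ^ (2 * k) := Nat.pow_le_pow_right two_pos (by omega)
    have : (k + 1) * ((2 * (160000 * n ^ 2 + 1) + 1) ^ n) ^ k * (k ^ 2 + 1) * 2 ^ 2 ≤
        2 ^ (8 * n ^ 2 * k) := by
      calc _ ≤ 2 ^ k * ((2 ^ (3 * n)) ^ n) ^ k * (2 ^ k) ^ 2 * 2 ^ (2 * k) := by gcongr
        _ ≤ _ := by
          simp only [← pow_mul, ← pow_add]
          refine Nat.pow_le_pow_right two_pos ?_
          have : k ≤ n ^ 2 * k := Nat.le_mul_of_pos_left _ (by positivity)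
          nlinarith
    exact_mod_cast this
  · have a1 : 2000 * n ^ 2 ≤ k := by
      have : 2000 * (n:ℝ) ^ 2 ≤ k := by
        refine le_trans ?_ k1
        calc _ ≤ exp 2000 * (exp m ^ 10) ^ 2 := by rw [hn]; gcongr <;> exact le_exp' _
          _ ≤ _ := by rw [← pow_mul, ← exp_nat_mul, ← exp_add]; gcongr; push_cast; linarith
      exact_mod_cast this
    calc _ ≤ 125 * ((k ^ 2 + k ^ 2) * (8 * n ^ 2 * k)) := by gcongr; exact Nat.one_le_pow _ _ k0'
      _ = 2000 * n ^ 2 * k ^ 3 := by ring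
      _ ≤ k * k ^ 3 := by gcongr
      _ = _ := by ring
  · rw [div_pow _ 2, mul_div_assoc', div_le_iff₀ (by positivity), mul_comm, Nat.cast_pow]
    gcongr
    refine (k3 4).trans ?_
    rw [← exp_log (x := 2) two_pos, ← exp_nat_mul, exp_le_exp]
    push_cast; nlinarith
  · rw [show 1 / m ^ 3 = m / 2 * (2 * (1 / m ^ 4)) by field_simp, mul_pow (m / 2)]
    gcongr
    rw [← exp_log (x := m / 2) (by positivity), ← exp_nat_mul, log_div m0.ne' two_ne_zero]
    push_cast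
    calc _ ≤ 2 * ((k ^ 2 + k ^ 2) * (2 * exp (200033 * D))) := by gcongr; exact one_le_pow₀ k0
      _ = 8 * k ^ 2 * exp (200033 * D) := by ring
      _ ≤ exp 8 * exp ((2:ℕ) * (4 * m ^ 8)) * exp (200033 * D) := by
          gcongr; exacts [le_exp' _, k3 2]
      _ ≤ _ := by rw [← exp_add, ← exp_add]; gcongr; push_cast; nlinarith
  · rw [exp_sub, mul_div_assoc', div_le_one (exp_pos _)]
    refine exp_le_of (le_trans ?_ (pow_div_factorial_le_exp m m0.le 12)) I1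
    rw [le_div_iff₀ (by positivity), pow_succ m 11, mul_assoc]
    gcongr
    norm_num [Nat.factorial]
    linarith [exp_one_lt_three]
  · refine le_trans ?_ k1
    rw [show n * (2 * (1 / m) ^ 2) = 2 * m ^ 8 by rw [hn]; field_simp]
    calc _ ≤ exp (11 * m) * exp (2 * m ^ 8) := by gcongr
      _ ≤ _ := by rw [← exp_add]; gcongr; linarith
  · rw [show n * ((1 / m) ^ 2 / 4) = m ^ 8 / 4 by rw [hn]; field_simp]
    calc _ ≤ exp 100 * exp (11 * m) * exp (-(m ^ 8 / 4)) := by gcongr; exact le_exp' _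
      _ ≤ _ := by rw [← exp_add, ← exp_add, exp_le_one_iff]; linarith

end Vale.Agent.P230
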