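import Vale.Agent.P230.Global

open MeasureTheory Finset Metric Filter
open scoped BigOperators Classical ENNReal Pointwise Topology

namespace Vale.Agent.P230

variable {n : ℕ}

lemma greedy_step {U : Set (E n)} (hU : volume U ≠ ⊤) (hU0 : 0 < volume.real U) {K : Set (E n)}
    (hK : IsCompact K) (Y : Finset (E n)) (hY : ∀ y ∈ Y, ∀ k ∈ K, y - k ∈ U) :
    ∃ x, ((Y.filter fun y => y - x ∉ K).card : ℝ) ≤ (1 - volume.real K / volume.real U) * Y.card := by
  by_contra hcon
  push Not at hcon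
  have hm : ∀ y : E n, MeasurableSet {x | y - x ∈ K} := fun y =>
    hK.measurableSet.preimage (by fun_prop)
  have hv : ∀ y : E n, volume {x | y - x ∈ K} = volume K := fun y =>
    (Measure.measurePreserving_sub_left volume y).measure_preimage hK.measurableSet.nullMeasurableSet
  have hi : ∀ y : E n, Integrable ({x | y - x ∈ K}.indicator fun _ => (1:ℝ)) := fun y =>
    (integrableOn_const (hv y ▸ hK.measure_lt_top.ne)).integrable_indicator (hm y)
  have h1 : ∫ x in U, ∑ y ∈ Y, {x | y - x ∈ K}.indicator (fun _ => (1:ℝ)) x = Y.card * volume.real K := by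
    rw [integral_finsetSum _ fun y _ => (hi y).integrableOn, ← nsmul_eq_mul, ← sum_const]
    refine sum_congr rfl fun y hy => ?_
    rw [integral_indicator_const _ (hm y), smul_eq_mul, mul_one, measureReal_def,
      Measure.restrict_apply (hm y), Set.inter_eq_left.2 fun x hx => by simpa using hY y hy _ hx, hv,
      measureReal_def]
  have h2 : ∀ x, 0 < volume.real K / volume.real U * Y.card -
      ∑ y ∈ Y, {x | y - x ∈ K}.indicator (fun _ => (1:ℝ)) x := fun x => by
    have h3 := card_filter_add_card_filter_not (s := Y) fun y => y - x ∈ K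
    have h4 : ∑ y ∈ Y, {x | y - x ∈ K}.indicator (fun _ => (1:ℝ)) x =
        (Y.filter fun y => y - x ∈ K).card := by simp [Set.indicator]
    have h5 := hcon x
    rw [← @Nat.cast_inj ℝ] at h3
    push_cast at h3
    linarith
  haveI : IsFiniteMeasure (volume.restrict U) := ⟨by simpa using hU.lt_top⟩
  have h6 := (integrable_finsetSum Y fun y _ => hi y).integrableOn (s := U)
  have h7 := (integral_pos_iff_support_of_nonneg (μ := volume.restrict U) (fun x => (h2 x).le)
    ((integrable_const _).sub h6)).2 (by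
      rw [Set.eq_univ_of_forall (s := Function.support _) fun x => (h2 x).ne']
      simpa using pos_iff_ne_zero.2 fun h => by simp [measureReal_def, h] at hU0)
  rw [integral_sub (integrable_const _) h6, h1, setIntegral_const, smul_eq_mul, ← mul_assoc,
    mul_div_cancel₀ _ hU0.ne'] at h7
  linarith

lemma greedy {U : Set (E n)} (hU : volume U ≠ ⊤) (hU0 : 0 < volume.real U) {K : Set (E n)}
    (hK : IsCompact K) (Y : Finset (E n)) (hY : ∀ y ∈ Y, ∀ k ∈ K, y - k ∈ U) (m : ℕ) :
    ∃ X : Finset (E n), X.card ≤ m ∧ ((Y.filter fun y => ∀ x ∈ X, y - x ∉ K).card : ℝ) ≤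
      Real.exp (-(m * (volume.real K / volume.real U))) * Y.card := by
  induction m with
  | zero => exact ⟨∅, by simp, by simp⟩
  | succ m ih =>
    obtain ⟨X, h1, h2⟩ := ih
    obtain ⟨x, hx⟩ := greedy_step hU hU0 hK (Y.filter fun y => ∀ x ∈ X, y - x ∉ K)
      fun y hy => hY y (mem_filter.1 hy).1
    refine ⟨insert x X, (card_insert_le _ _).trans (by omega), ?_⟩
    simp only [forall_mem_insert]
    rw [filter_filter] at hx
    calc _ = _ := by congr 3; ext; exact and_comm
      _ ≤ _ := hx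
      _ ≤ Real.exp (-(volume.real K / volume.real U)) *
          (Real.exp (-(m * (volume.real K / volume.real U))) * Y.card) := by
          refine mul_le_mul ?_ h2 (by positivity) (by positivity)
          linarith [Real.add_one_le_exp (-(volume.real K / volume.real U))]
      _ = _ := by rw [← mul_assoc, ← Real.exp_add]; congr 2; push_cast; ring

/-- `X` covers the cube -/
def Cov (K : Set (E n)) (R : ℝ) (X : Finset (E n)) : Prop := ∀ y ∈ cube n R, ∃ x ∈ X, y - x ∈ K

lemma crude {K : Set (E n)} (hK : (interior K).Nonempty) : ∃ C : ℝ, ∀ R, 1 ≤ R →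
    ∃ X, Cov K R X ∧ (X.card : ℝ) ≤ C * (2 * R) ^ n := by
  obtain ⟨z, hz⟩ := hK
  obtain ⟨s, hs, hs'⟩ := Metric.mem_nhds_iff.1 (mem_interior_iff_mem_nhds.1 hz)
  refine ⟨(4 * n * (n + 1) / s + 3) ^ n, fun R hR => ?_⟩
  have hn : (0:ℝ) ≤ n := Nat.cast_nonneg n
  obtain ⟨a, ha⟩ : ∃ a : ℝ, a = (n + 1) * R := ⟨_, rfl⟩
  have ha0 : 0 < a := by rw [ha]; positivity
  obtain ⟨Gr, rnd, h1, h2⟩ := exists_grid (n := n) (η := s / (2 * a)) (by positivity) _ (Nat.le_ceil _)
  refine ⟨Gr.image fun g => a • g - z, fun y hy => ?_, ?_⟩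
  · have h3 : ‖y‖ ≤ a := by
      refine (sq_le_sq₀ (norm_nonneg _) ha0.le).1 ?_
      rw [EuclideanSpace.real_norm_sq_eq]
      refine (sum_le_card_nsmul _ _ (R ^ 2) fun i _ => sq_le_sq' (hy i).1 (hy i).2).trans ?_
      rw [card_univ, Fintype.card_fin, nsmul_eq_mul, ha, mul_pow]
      gcongr; nlinarith
    obtain ⟨h4, h5⟩ := h2 (a⁻¹ • y) (by
      rw [norm_smul, norm_inv, Real.norm_of_nonneg ha0.le, inv_mul_le_iff₀ ha0]; linarith)
    refine ⟨_, mem_image_of_mem _ h4, hs' ?_⟩
    rw [mem_ball_iff_norm, show y - (a • rnd (a⁻¹ • y) - z) - z = -(a • (rnd (a⁻¹ • y) - a⁻¹ • y)) by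
      rw [smul_sub, smul_inv_smul₀ ha0.ne']; abel, norm_neg, norm_smul, Real.norm_of_nonneg ha0.le]
    calc _ ≤ a * (s / (2 * a)) := by gcongr
      _ = s / 2 := by field_simp
      _ < s := by linarith
  · calc _ ≤ (((2 * ⌈2 * n / (s / (2 * a)) + 1⌉₊ + 1) ^ n : ℕ) : ℝ) := by
          exact_mod_cast card_image_le.trans h1
      _ ≤ _ := by
          rw [← mul_pow]
          push_cast
          gcongr
          have := Nat.ceil_lt_add_one (a := 2 * n / (s / (2 * a)) + 1) (by positivity)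
          have h6 : 2 * n / (s / (2 * a)) = (4 * n * (n + 1) / s) * R := by rw [ha]; field_simp; ring
          rw [h6] at this ⊢
          linarith

lemma pow_le_two {R a : ℝ} (hR : 0 < R) (ha : 0 ≤ a) (h : 2 * n * a ≤ R) :
    (2 * (R + a)) ^ n ≤ 2 * (2 * R) ^ n := by
  rw [show 2 * (R + a) = (a / R + 1) * (2 * R) by field_simp; ring, mul_pow (a / R + 1)]
  gcongr
  calc _ ≤ Real.exp (a / R) ^ n := by gcongr; exact Real.add_one_le_exp _
    _ ≤ Real.exp (Real.log 2) := by
      rw [← Real.exp_nat_mul, Real.exp_le_exp, mul_div_assoc', div_le_iff₀ hR]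
      nlinarith [Real.log_two_gt_d9]
    _ = 2 := Real.exp_log two_pos

lemma step {K : Set (E n)} (hK : IsConvexBody K) {b : ℝ} (hb : ∀ k ∈ K, ‖k‖ ≤ b) (hn : 2 ≤ n) {R : ℝ}
    (hR : 0 < R) (hR1 : 4 * n * b ≤ R) (hR2 : volume.real K ≤ (2 * R) ^ n) {Y : Finset (E n)}
    (hY : Cov K (n * R) Y) : ∃ X, Cov K R X ∧ (X.card : ℝ) ≤
      (18 * (n * Real.log n + 1) + 1) / volume.real K * (2 * R) ^ n + Y.card / (2 * n ^ n) := by
  have hn' : (2:ℝ) ≤ n := by exact_mod_cast hn
  obtain ⟨k₀, hk₀⟩ := hK.2.2.mono interior_subset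
  have hb0 := (norm_nonneg _).trans (hb _ hk₀)
  obtain ⟨e, he⟩ : ∃ e : ℝ, e = 1 / n := ⟨_, rfl⟩
  have he0 : 0 < e := by rw [he]; positivity
  have he1 : e ≤ 1 / 2 := by rw [he]; gcongr
  have he2 : e * n = 1 := by rw [he]; field_simp
  have hv : 0 < volume.real K := ENNReal.toReal_pos (Measure.measure_pos_of_nonempty_interior _ hK.2.2).ne'
    hK.1.measure_lt_top.ne
  have hU : volume.real (cube n (R + 2 * b)) = (2 * (R + 2 * b)) ^ n := by
    rw [measureReal_def, vol_cube (by linarith), ENNReal.toReal_ofReal (by positivity)]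
  have hK1 : volume.real ((1 - e) • K) = (1 - e) ^ n * volume.real K := by
    rw [measureReal_def, Measure.addHaar_smul_of_nonneg _ (by linarith), ENNReal.toReal_mul,
      ENNReal.toReal_ofReal (pow_nonneg (by linarith) _), finrank_euclideanSpace_fin, measureReal_def]
  have hL : 0 ≤ Real.log n := Real.log_nonneg (by linarith)
  obtain ⟨p, hp⟩ : ∃ p, p = volume.real ((1 - e) • K) / volume.real (cube n (R + 2 * b)) := ⟨_, rfl⟩
  have hp1 : volume.real K / (2 * R) ^ n / 18 ≤ p := by
    have a1 : (1 / 9 : ℝ) ≤ (1 - e) ^ n := by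
      have a0 : (1 + 2 * e) ^ n ≤ 9 := by
        calc _ ≤ Real.exp (2 * e) ^ n := by gcongr; linarith [Real.add_one_le_exp (2 * e)]
          _ = Real.exp 1 ^ 2 := by
            rw [← Real.exp_nat_mul, ← Real.exp_nat_mul]; congr 1; push_cast; linarith
          _ ≤ 3 ^ 2 := by gcongr; exact Real.exp_one_lt_three.le
          _ = 9 := by norm_num
      have a3 : 1 ≤ (1 - e) ^ n * (1 + 2 * e) ^ n := by
        rw [← mul_pow]; exact one_le_pow₀ (by nlinarith)
      have a4 : 0 ≤ (1 - e) ^ n := pow_nonneg (by linarith) _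
      nlinarith
    have a2 : (2 * (R + 2 * b)) ^ n ≤ 2 * (2 * R) ^ n := pow_le_two hR (by linarith) (by linarith)
    rw [hp, hK1, hU, div_div, div_le_div_iff₀ (by positivity) (by positivity)]
    calc _ ≤ volume.real K * (2 * (2 * R) ^ n) := by gcongr
      _ = 1 / 9 * volume.real K * ((2 * R) ^ n * 18) := by ring
      _ ≤ _ := by gcongr
  have hp0 : 0 < p := lt_of_lt_of_le (by positivity) hp1
  obtain ⟨X, h1, h2⟩ := greedy (U := cube n (R + 2 * b)) (cube_bdd _).measure_lt_top.ne
    (by rw [hU]; positivity) (hK.1.smul (1 - e)) ((Y.image fun y => e • y).filter (· ∈ cube n (R + b)))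
    (fun y hy k ⟨k', hk', hk⟩ => mem_cube.2 fun i => by
      have a1 := mem_cube.1 (mem_filter.1 hy).2 i
      have a2 : |k i| ≤ b := (PiLp.norm_apply_le k i).trans (by
        rw [← hk, norm_smul, Real.norm_of_nonneg (by linarith)]
        nlinarith [hb k' hk', norm_nonneg k'])
      rw [PiLp.sub_apply]
      exact (abs_sub _ _).trans (by linarith)) ⌈(n * Real.log n + 1) / p⌉₊
  rw [← hp] at h2
  refine ⟨X ∪ (((Y.image fun y => e • y).filter (· ∈ cube n (R + b))).filter fun y =>
    ∀ x ∈ X, y - x ∉ (1 - e) • K).image (· - (1 - e) • k₀), fun y hy => ?_, ?_⟩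
  · obtain ⟨x, hx, hx'⟩ := hY ((n:ℝ) • y) (mem_cube.2 fun i => by
      rw [PiLp.smul_apply, smul_eq_mul, abs_mul, abs_of_nonneg (by linarith)]
      gcongr; exact mem_cube.1 hy i)
    have a1 : y - e • x = e • ((n:ℝ) • y - x) := by rw [smul_sub, smul_smul, he2, one_smul]
    have a2 : e • x ∈ (Y.image fun y => e • y).filter (· ∈ cube n (R + b)) := by
      refine mem_filter.2 ⟨mem_image_of_mem _ hx, mem_cube.2 fun i => ?_⟩
      have a3 : |(y - e • x) i| ≤ b := (PiLp.norm_apply_le (y - e • x) i).trans (by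
        rw [a1, norm_smul, Real.norm_of_nonneg he0.le]
        nlinarith [hb _ hx', norm_nonneg ((n:ℝ) • y - x)])
      rw [← sub_sub_cancel y (e • x), PiLp.sub_apply]
      exact (abs_sub _ _).trans (by linarith [mem_cube.1 hy i])
    have a4 : ∀ x', e • x - x' ∈ (1 - e) • K → y - x' ∈ K := fun x' ⟨k, hk, hk'⟩ => by
      rw [← sub_add_sub_cancel y (e • x), a1, ← hk']
      exact hK.2.1 hx' hk he0.le (by linarith) (by ring)
    by_cases hc : ∀ x' ∈ X, e • x - x' ∉ (1 - e) • K
    · exact ⟨_, mem_union_right _ (mem_image_of_mem _ (mem_filter.2 ⟨a2, hc⟩)),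
        a4 _ ⟨k₀, hk₀, by simp⟩⟩
    · push Not at hc
      obtain ⟨x', h3, h4⟩ := hc
      exact ⟨x', mem_union_left _ h3, a4 _ h4⟩
  · refine (Nat.cast_le.2 ((card_union_le _ _).trans (add_le_add h1 card_image_le))).trans ?_
    push_cast
    refine add_le_add ((Nat.ceil_lt_add_one (by positivity)).le.trans ?_) (h2.trans ?_)
    · rw [add_div (18 * _), add_mul]
      refine add_le_add ((div_le_div_of_nonneg_left (by positivity) (by positivity) hp1).trans
        (le_of_eq (by field_simp))) ?_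
      rwa [one_div, ← div_eq_inv_mul, one_le_div hv]
    · rw [div_eq_inv_mul (Y.card : ℝ)]
      refine mul_le_mul ?_ (Nat.cast_le.2 ((card_filter_le _ _).trans card_image_le)) (by positivity)
        (by positivity)
      have := Nat.le_ceil ((n * Real.log n + 1) / p)
      rw [div_le_iff₀ hp0] at this
      calc _ ≤ Real.exp (-(n * Real.log n + 1)) := by gcongr
        _ ≤ _ := by
          rw [Real.exp_neg, Real.exp_add, Real.exp_nat_mul, Real.exp_log (by linarith), mul_comm]
          gcongr; linarith [Real.add_one_le_exp 1]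

lemma exists_cov {K : Set (E n)} (hK : IsConvexBody K) (hn : 2 ≤ n) : ∃ R > 0, ∃ X, Cov K R X ∧
    (X.card : ℝ) ≤ (2 * ((18 * (n * Real.log n + 1) + 1) / volume.real K) + 1 / volume.real K) *
      (2 * R) ^ n := by
  obtain ⟨b, hb⟩ := isBounded_iff_forall_norm_le.1 hK.1.isBounded
  obtain ⟨C, hC⟩ := crude hK.2.2
  have hv : 0 < volume.real K := ENNReal.toReal_pos (Measure.measure_pos_of_nonempty_interior _ hK.2.2).ne'
    hK.1.measure_lt_top.ne
  have hn' : (2:ℝ) ≤ n := by exact_mod_cast hn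
  obtain ⟨B, hB⟩ : ∃ B, B = (18 * (n * Real.log n + 1) + 1) / volume.real K := ⟨_, rfl⟩
  obtain ⟨R₀, hR₀⟩ : ∃ R₀ : ℝ, R₀ = max 1 (max (4 * n * b) (volume.real K)) := ⟨_, rfl⟩
  have h1 : 1 ≤ R₀ := hR₀ ▸ le_max_left _ _
  have key : ∀ j : ℕ, ∀ R, R₀ ≤ R → ∃ X, Cov K R X ∧
      (X.card : ℝ) ≤ (2 * B + C * (1 / 2) ^ j) * (2 * R) ^ n := by
    intro j
    induction j with
    | zero =>
      intro R hR
      obtain ⟨X, h2, h3⟩ := hC R (h1.trans hR)
      have : 0 ≤ Real.log n := Real.log_nonneg (by linarith)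
      have : 0 ≤ B := by rw [hB]; positivity
      exact ⟨X, h2, h3.trans (mul_le_mul_of_nonneg_right (by linarith) (pow_nonneg (by linarith) _))⟩
    | succ j ih =>
      intro R hR
      obtain ⟨Y, h2, h3⟩ := ih (n * R) (by nlinarith)
      rw [hR₀, max_le_iff, max_le_iff] at hR
      obtain ⟨X, h4, h5⟩ := step hK hb hn (by linarith) hR.2.1 (hR.2.2.trans (le_trans (by linarith)
        (le_self_pow₀ (by linarith) (by omega)))) h2
      refine ⟨X, h4, h5.trans ?_⟩
      rw [← hB]
      rw [mul_left_comm 2, mul_pow (n:ℝ)] at h3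
      have : (Y.card : ℝ) / (2 * n ^ n) ≤ (2 * B + C * (1 / 2) ^ j) * (2 * R) ^ n / 2 := by
        rw [div_le_iff₀ (by positivity)]; linarith
      rw [pow_succ]; linarith
  have h2 : Tendsto (fun j : ℕ => C * (1 / 2 : ℝ) ^ j) atTop (𝓝 (C * 0)) :=
    (tendsto_pow_atTop_nhds_zero_of_lt_one (by norm_num) (by norm_num)).const_mul C
  obtain ⟨j, hj⟩ := (h2.eventually (eventually_le_nhds (b := 1 / volume.real K) (by
    rw [mul_zero]; positivity))).exists
  obtain ⟨X, h3, h4⟩ := key j R₀ le_rfl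
  exact ⟨R₀, by linarith, X, h3, h4.trans (by rw [← hB]; gcongr)⟩

lemma tile {K : Set (E n)} {R : ℝ} (hR : 0 < R) {X : Finset (E n)} (hX : Cov K R X) :
    ∃ Z : Set (E n), LocFinite Z ∧ K + Z = Set.univ ∧
      upperDensity Z ≤ ENNReal.ofReal (2 * X.card / (2 * R) ^ n) := by
  obtain ⟨b, hb⟩ := isBounded_iff_forall_norm_le.1 X.finite_toSet.isBounded
  obtain ⟨f, hf⟩ : ∃ f : E n × (Fin n → ℤ) → E n, f = fun q =>
    q.1 + WithLp.toLp 2 fun i => 2 * R * q.2 i := ⟨_, rfl⟩
  have key : ∀ S, 0 ≤ S → ∃ T : Finset (E n), f '' (X ×ˢ Set.univ) ∩ cube n S ⊆ T ∧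
      (T.card : ℝ) ≤ X.card * ((S + (|b| + R)) / R) ^ n := fun S hS => by
    refine ⟨(X ×ˢ Fintype.piFinset fun _ => Icc (-(⌊(S + |b|) / (2 * R)⌋₊ : ℤ))
      ⌊(S + |b|) / (2 * R)⌋₊).image f, ?_, ?_⟩
    · rintro _ ⟨⟨⟨x, u⟩, ⟨hx, -⟩, rfl⟩, h⟩
      refine mem_coe.2 (mem_image_of_mem _ (mem_product.2 ⟨hx, Fintype.mem_piFinset.2 fun i => ?_⟩))
      have h1 := mem_cube.1 h i
      have h2 : |x i| ≤ |b| := ((PiLp.norm_apply_le x i).trans (hb x hx)).trans (le_abs_self b)
      simp only [hf, PiLp.add_apply] at h1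
      have h3 : (((u i).natAbs : ℕ) : ℝ) ≤ (S + |b|) / (2 * R) := by
        rw [le_div_iff₀ (by positivity), Nat.cast_natAbs, Int.cast_abs, ← abs_of_pos (mul_pos two_pos hR),
          ← abs_mul, mul_comm]
        have := abs_sub (x i + 2 * R * u i) (x i)
        rw [add_sub_cancel_left] at this; linarith
      have := Nat.le_floor h3
      simp only [mem_Icc]; omega
    · calc _ ≤ ((X.card * (2 * ⌊(S + |b|) / (2 * R)⌋₊ + 1) ^ n : ℕ) : ℝ) := by
            refine Nat.cast_le.2 (card_image_le.trans (le_of_eq ?_))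
            simp only [card_product, Fintype.card_piFinset, Int.card_Icc, prod_const, card_univ,
              Fintype.card_fin]
            congr 2; omega
        _ ≤ _ := by
            push_cast
            gcongr
            have := Nat.floor_le (a := (S + |b|) / (2 * R)) (by positivity)
            rw [le_div_iff₀ (by positivity)] at this ⊢
            linarith
  refine ⟨f '' (X ×ˢ Set.univ), fun B hB => ?_, Set.eq_univ_of_forall fun y => ?_, ?_⟩
  · obtain ⟨S, hS⟩ := isBounded_iff_forall_norm_le.1 hB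
    obtain ⟨T, hT, -⟩ := key |S| (abs_nonneg _)
    exact T.finite_toSet.subset fun x hx => hT ⟨hx.1, mem_cube.2 fun i =>
      ((PiLp.norm_apply_le x i).trans (hS x hx.2)).trans (le_abs_self S)⟩
  · obtain ⟨x, hx, hx'⟩ := hX (y - WithLp.toLp 2 fun i => 2 * R * round (y i / (2 * R)))
      (mem_cube.2 fun i => by
        have := abs_sub_round (y i / (2 * R))
        rw [PiLp.sub_apply, show y i - 2 * R * round (y i / (2 * R)) =
          2 * R * (y i / (2 * R) - round (y i / (2 * R))) by field_simp, abs_mul,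
          abs_of_pos (mul_pos two_pos hR)]
        nlinarith)
    exact ⟨_, hx', _, ⟨(x, fun i => round (y i / (2 * R))), ⟨hx, trivial⟩, rfl⟩, by simp only [hf]; abel⟩
  · refine limsup_le_of_le (h := ((eventually_ge_atTop (2 * n * (|b| + R))).and
      (eventually_gt_atTop 0)).mono fun S ⟨h1, h2⟩ => ?_)
    obtain ⟨T, hT, hT'⟩ := key S h2.le
    refine (ENNReal.div_le_div_right (ENat.toENNReal_le.2 (Set.encard_le_encard hT)) _).trans ?_
    rw [Set.encard_coe_eq_coe_finsetCard, ENat.toENNReal_coe, ← ENNReal.ofReal_natCast,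
      ← ENNReal.ofReal_div_of_pos (by positivity)]
    refine ENNReal.ofReal_le_ofReal ?_
    have := pow_le_two (n := n) h2 (by positivity) h1
    rw [div_le_div_iff₀ (by positivity) (by positivity)]
    calc _ ≤ X.card * ((S + (|b| + R)) / R) ^ n * (2 * R) ^ n := by gcongr
      _ = X.card * (2 * (S + (|b| + R))) ^ n := by rw [mul_assoc, ← mul_pow]; congr 2; field_simp
      _ ≤ X.card * (2 * (2 * S) ^ n) := by gcongr
      _ = _ := by ring

theorem upper (hn : 3 ≤ n) {K : Set (E n)} (hK : IsConvexBody K) :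
    thetaT K ≤ ENNReal.ofReal (200 * n * Real.log n) := by
  obtain ⟨R, hR, X, h1, h2⟩ := exists_cov hK (by omega)
  obtain ⟨Z, h3, h4, h5⟩ := tile hR h1
  have hv : 0 < volume.real K := ENNReal.toReal_pos (Measure.measure_pos_of_nonempty_interior _ hK.2.2).ne'
    hK.1.measure_lt_top.ne
  refine iInf_le_of_le Z (iInf₂_le_of_le h3 h4 ((mul_le_mul_right h5 _).trans ?_))
  rw [← ENNReal.ofReal_toReal hK.1.measure_lt_top.ne, ← measureReal_def, ← ENNReal.ofReal_mul hv.le]
  refine ENNReal.ofReal_le_ofReal ?_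
  have hn' : (3:ℝ) ≤ n := by exact_mod_cast hn
  have hL : 1 ≤ Real.log n := by
    rw [Real.le_log_iff_exp_le (by linarith)]; linarith [Real.exp_one_lt_three]
  rw [← div_le_iff₀ (by positivity)] at h2
  calc _ ≤ volume.real K * (2 * (2 * ((18 * (n * Real.log n + 1) + 1) / volume.real K) +
        1 / volume.real K)) := by rw [mul_div_assoc]; gcongr
    _ = 2 * (2 * (18 * (n * Real.log n + 1) + 1) + 1) := by field_simp
    _ ≤ _ := by nlinarith

end Vale.Agent.P230
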